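import Vale.Agent.Lib.P121.Potential

open Real Set MeasureTheory
open scoped ENNReal

namespace Vale.Agent.Lib.P121

/-! ### Distinctness of the five patches -/

lemma XX_ne_W {σ : ℝ} (hσ : σ ^ 2 = 1) {p : Fin 3 → ℝ} (hp : p ∈ Dom) {u : E3}
    (hu : InnerPt u) : XX σ p ≠ u := by
  intro h
  have h1 := norm_XX hσ hp
  have h2 := (gg_bounds hp.1).1
  have h3 := hu.2.2
  rw [← h] at h3
  linarith

lemma coord0_X1 {p : Fin 3 → ℝ} (hp : p ∈ Dom) : XX 1 p 0 < 0 := by
  have h1 := xi_X1 hp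
  have h2 := cos_pos_phi hp.2.2.2.1 hp.2.2.2.2
  unfold XX
  rw [mapE_0]
  unfold xiOf at h1
  exact mul_neg_of_neg_of_pos h1 h2

lemma coord0_X2 {p : Fin 3 → ℝ} (hp : p ∈ Dom) : 0 < XX (-1) p 0 := by
  have h1 := xi_X2 hp
  have h2 := cos_pos_phi hp.2.2.2.1 hp.2.2.2.2
  unfold XX
  rw [mapE_0]
  unfold xiOf at h1
  exact mul_pos h1 h2

lemma coord0_W0 {p : Fin 3 → ℝ} (hp : p ∈ Dom) : 0 < W0 p 0 := by
  have h1 := xi_W0 hp
  have h2 := cos_pos_phi hp.2.2.2.1 hp.2.2.2.2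
  unfold W0
  rw [mapE_0]
  unfold xiOf at h1
  exact mul_pos h1 h2

lemma coord0_WW {σ : ℝ} (hσ : σ ^ 2 = 1) {p : Fin 3 → ℝ} (hp : p ∈ Dom) : WW σ p 0 < 0 := by
  have h1 := xi_W hσ hp
  have h2 := cos_pos_phi hp.2.2.2.1 hp.2.2.2.2
  unfold WW
  rw [mapE_0]
  unfold xiOf at h1
  exact mul_neg_of_neg_of_pos h1 h2

lemma X1_ne_X2 {p q : Fin 3 → ℝ} (hp : p ∈ Dom) (hq : q ∈ Dom) : XX 1 p ≠ XX (-1) q := by
  intro h
  have h1 := coord0_X1 hp
  have h2 := coord0_X2 hq
  rw [h] at h1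
  linarith

lemma W0_ne_WW {σ : ℝ} (hσ : σ ^ 2 = 1) {p q : Fin 3 → ℝ} (hp : p ∈ Dom) (hq : q ∈ Dom) :
    W0 p ≠ WW σ q := by
  intro h
  have h1 := coord0_W0 hp
  have h2 := coord0_WW hσ hq
  rw [h] at h1
  linarith

/-- The two private near patches are disjoint. -/
lemma W1_ne_W2 {p q : Fin 3 → ℝ} (hp : p ∈ Dom) (hq : q ∈ Dom) : WW 1 p ≠ WW (-1) q := by
  intro h
  have hσ1 : (1 : ℝ) ^ 2 = 1 := by norm_num
  have hσ2 : (-1 : ℝ) ^ 2 = 1 := by norm_num
  have h1 : p 0 = q 0 := by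
    apply RR_inj hp.1 hq.1
    rw [← norm_sq_WW hσ1 hp, ← norm_sq_WW hσ2 hq, h]
  have h2 := congrArg (fun x : E3 => x 2) h
  simp only [WW, mapE_2, ← h1] at h2
  have hb : Band (p 0) := hp.1
  obtain ⟨-, a1, a2, -, -⟩ := hp
  obtain ⟨-, b1, b2, -, -⟩ := hq
  have s1 := sin_half_le a1 a2
  have s2 := sin_half_le b1 b2
  have hR := RR_pos hb
  have hR2 := RR_bounds hb
  have hh1 := (hh_bounds hb).1
  have ha1 := aa_one_le hb.pos
  have hQW : 1 / 110 ≤ QW (p 0) := by
    unfold QW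
    rw [le_div_iff₀ hR]
    nlinarith [hR2.2]
  have hPW : |PW (p 0)| ≤ 51 / 100 := by
    have e1 := PW_QW_sq hb
    have e2 : PW (p 0) ^ 2 ≤ (51 / 100) ^ 2 := by nlinarith [sq_nonneg (QW (p 0)), hR2.2]
    exact abs_le_of_sq_le_sq e2 (by norm_num)
  have hc : |cos (p 1) - cos (q 1)| ≤ 1 / 100 := by
    refine (abs_cos_sub_cos_le _ _).trans ?_
    rw [abs_le]
    constructor <;> linarith
  have key : PW (p 0) * (cos (p 1) - cos (q 1)) = QW (p 0) * (sin (p 1) + sin (q 1)) := by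
    linear_combination h2
  have k1 : |PW (p 0) * (cos (p 1) - cos (q 1))| ≤ 51 / 100 * (1 / 100) := by
    rw [abs_mul]
    exact mul_le_mul hPW hc (abs_nonneg _) (by norm_num)
  have k2 : 1 / 110 * 1 ≤ QW (p 0) * (sin (p 1) + sin (q 1)) := by
    apply mul_le_mul hQW (by linarith) (by norm_num) (by linarith)
  rw [key] at k1
  have k3 := le_abs_self (QW (p 0) * (sin (p 1) + sin (q 1)))
  norm_num at *
  linarith

/-! ### The measure and the reference plan -/

/-- Lebesgue measure on the parameter domain. -/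
noncomputable abbrev nu : Measure (Fin 3 → ℝ) := volume.restrict Dom

lemma nu_univ : nu univ = volume Dom := by
  simp [nu]

lemma volume_Dom_ne_zero : volume Dom ≠ 0 := by
  refine (isOpen_Dom.measure_pos volume ?_).ne'
  refine ⟨![2 / 11, 151 / 200, 0], ?_⟩
  have e2 : (![2 / 11, 151 / 200, 0] : Fin 3 → ℝ) 2 = 0 := rfl
  simp only [Dom, Band, mem_ofPred_eq, e2]
  norm_num

lemma volume_Dom_ne_top : volume Dom ≠ ∞ := by
  have hsub : Dom ⊆ Set.Icc (fun _ : Fin 3 => (-1 : ℝ)) (fun _ => 1) := by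
    intro p hp
    obtain ⟨hb, h1, h2, h3, h4⟩ := hp
    obtain ⟨h5, h6⟩ := hb
    constructor
    · intro i
      fin_cases i
      · simp only [Fin.zero_eta]; linarith
      · simp only [Fin.mk_one]; linarith
      · simp only [Fin.reduceFinMk]; linarith
    · intro i
      fin_cases i
      · simp only [Fin.zero_eta]; linarith
      · simp only [Fin.mk_one]; linarith
      · simp only [Fin.reduceFinMk]; linarith
  have h : volume (Set.Icc (fun _ : Fin 3 => (-1 : ℝ)) (fun _ => 1)) < ∞ :=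
    isCompact_Icc.measure_lt_top
  exact ne_top_of_le_ne_top h.ne (measure_mono hsub)

instance : IsFiniteMeasure nu := by
  constructor
  rw [nu_univ]
  exact volume_Dom_ne_top.lt_top

/-- The normalizing constant. -/
noncomputable def kap : ℝ≥0∞ := (6 * nu univ)⁻¹

lemma kap_mul : kap * (6 * nu univ) = 1 := by
  unfold kap
  apply ENNReal.inv_mul_cancel
  · rw [nu_univ]
    simp [volume_Dom_ne_zero]
  · rw [nu_univ]
    exact ENNReal.mul_ne_top (by norm_num) volume_Dom_ne_top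

lemma kap_ne_zero : kap ≠ 0 := by
  intro h
  have := kap_mul
  rw [h] at this
  simp at this

lemma kap_ne_top : kap ≠ ∞ := by
  unfold kap
  simp only [ne_eq, ENNReal.inv_eq_top, mul_eq_zero, OfNat.ofNat_ne_zero, false_or]
  rw [nu_univ]
  exact volume_Dom_ne_zero

/-- The counterexample measure. -/
noncomputable def muC : Measure E3 :=
  kap • (nu.map (XX 1) + nu.map (WW 1) + nu.map (XX (-1)) + nu.map (WW (-1))
    + nu.map W0 + nu.map W0)

lemma muC_apply {E : Set E3} (hE : MeasurableSet E) :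
    muC E = kap * (nu (XX 1 ⁻¹' E) + nu (WW 1 ⁻¹' E) + nu (XX (-1) ⁻¹' E) + nu (WW (-1) ⁻¹' E)
      + nu (W0 ⁻¹' E) + nu (W0 ⁻¹' E)) := by
  unfold muC
  rw [Measure.smul_apply, smul_eq_mul]
  simp only [Measure.add_apply, Measure.map_apply (measurable_XX _) hE,
    Measure.map_apply (measurable_WW _) hE, Measure.map_apply measurable_W0 hE]

lemma muC_univ : muC univ = 1 := by
  rw [muC_apply MeasurableSet.univ]
  simp only [preimage_univ]
  rw [← kap_mul]
  congr 1
  ring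

instance muC_prob : IsProbabilityMeasure muC := ⟨muC_univ⟩

lemma muC_absCont : muC ≪ (volume : Measure E3) := by
  unfold muC
  refine Measure.AbsolutelyContinuous.smul_left ?_ _
  refine Measure.AbsolutelyContinuous.add_left (Measure.AbsolutelyContinuous.add_left
    (Measure.AbsolutelyContinuous.add_left (Measure.AbsolutelyContinuous.add_left
    (Measure.AbsolutelyContinuous.add_left ?_ ?_) ?_) ?_) ?_) ?_
  · exact absCont_XX (Or.inl rfl)
  · exact absCont_WW (Or.inl rfl)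
  · exact absCont_XX (Or.inr rfl)
  · exact absCont_WW (Or.inr rfl)
  · exact absCont_W0
  · exact absCont_W0

end Vale.Agent.Lib.P121
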