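import Mathlib

open MeasureTheory
open scoped ENNReal

namespace Vale.Agent.Lib.P121

/-- Euclidean three-space. -/
abbrev E3 : Type := EuclideanSpace ℝ (Fin 3)

/-- The three-particle Coulomb cost `1/|x-y| + 1/|x-z| + 1/|y-z|`, with values in `[0, ∞]`;
it equals `∞` as soon as two of the points coincide. -/
noncomputable def coulombCost (x y z : E3) : ℝ≥0∞ :=
  (‖x - y‖ₑ)⁻¹ + (‖x - z‖ₑ)⁻¹ + (‖y - z‖ₑ)⁻¹

/-- `π` is a Borel probability measure on `(ℝ³)³` all of whose three coordinate marginals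
equal `μ`, i.e. `π ∈ Π(μ, μ, μ)`. -/
structure IsThreeCoupling (μ : Measure E3) (π : Measure (E3 × E3 × E3)) : Prop where
  prob : IsProbabilityMeasure π
  marginal_one : π.map (fun q => q.1) = μ
  marginal_two : π.map (fun q => q.2.1) = μ
  marginal_three : π.map (fun q => q.2.2) = μ

/-- The Kantorovich value `ℰ(μ) = inf_{π ∈ Π(μ,μ,μ)} ∫ c dπ` of the Coulomb cost. -/
noncomputable def kantorovichValue (μ : Measure E3) : ℝ≥0∞ :=
  ⨅ (π : Measure (E3 × E3 × E3)) (_ : IsThreeCoupling μ π),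
    ∫⁻ q, coulombCost q.1 q.2.1 q.2.2 ∂π

/-- `(T₂, T₃)` defines a Monge plan for `μ`: both are Borel maps and push `μ` to `μ`. -/
structure IsMongePair (μ : Measure E3) (T₂ T₃ : E3 → E3) : Prop where
  meas_two : Measurable T₂
  meas_three : Measurable T₃
  push_two : μ.map T₂ = μ
  push_three : μ.map T₃ = μ

/-- The cost `∫ c(x, T₂ x, T₃ x) dμ(x)` of the Monge plan `(Id, T₂, T₃)_# μ`. -/
noncomputable def mongeCost (μ : Measure E3) (T₂ T₃ : E3 → E3) : ℝ≥0∞ :=
  ∫⁻ x, coulombCost x (T₂ x) (T₃ x) ∂μ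

/-- `μ` admits an optimal Monge plan: a Monge plan whose cost equals `ℰ(μ)`. -/
def AdmitsOptimalMongePlan (μ : Measure E3) : Prop :=
  ∃ T₂ T₃ : E3 → E3, IsMongePair μ T₂ T₃ ∧ mongeCost μ T₂ T₃ = kantorovichValue μ

end Vale.Agent.Lib.P121
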