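import Vale.Agent.Lib.P121.Plan

open Real Set MeasureTheory
open scoped ENNReal

namespace Vale.Agent.Lib.P121

/-! ### Potentials in `ℝ≥0∞` -/

/-- shifted first level potential -/
noncomputable def Vr (x : E3) : ℝ := Ur x + 3
/-- first level potential -/
noncomputable def VV (x : E3) : ℝ≥0∞ := ENNReal.ofReal (Vr x)
/-- shifted second level potential -/
noncomputable def Yr (x : E3) : ℝ := Fr x + 1
/-- second level potential -/
noncomputable def YY (x : E3) : ℝ≥0∞ := ENNReal.ofReal (Yr x)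

lemma measurable_VV : Measurable VV :=
  ENNReal.measurable_ofReal.comp (measurable_Ur.add_const 3)

lemma measurable_YY : Measurable YY :=
  ENNReal.measurable_ofReal.comp (measurable_Fr.add_const 1)

lemma Vr_nonneg {u : E3} (hu : u ∈ Om) : 0 ≤ Vr u := by
  unfold Vr
  rcases classify hu with h | h
  · have := (Ur_outer_bounds h).1
    linarith
  · have := (Ur_inner_bounds h).1
    linarith

lemma coord2_sq_le (x : E3) : x 2 ^ 2 ≤ ‖x‖ ^ 2 := by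
  rw [norm_sq3]
  nlinarith [sq_nonneg (x 0), sq_nonneg (x 1)]

lemma Yr_nonneg {u : E3} (hu : u ∈ Om) : 0 ≤ Yr u := by
  unfold Yr
  rcases classify hu with h | h
  · obtain ⟨σ, p, hσ, hp, rfl⟩ := h
    have hσ2 := sigma_sq hσ
    rw [Fr_XX hσ2 hp]
    have hb : Band (p 0) := hp.1
    have hg := gg_pos hb
    have h1 : (XX σ p) 2 ^ 2 / gg (p 0) ^ 2 ≤ 1 := by
      rw [div_le_one (by positivity), ← norm_XX hσ2 hp]
      exact coord2_sq_le _
    have h2 : 0 ≤ p 0 ^ 6 / 2 * (XX σ p) 2 ^ 2 := by positivity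
    have h3 : 0 ≤ aa (p 0) ^ 2 / 2 * (1 - (XX σ p) 2 ^ 2 / gg (p 0) ^ 2) := by
      apply mul_nonneg (by positivity)
      linarith
    linarith
  · rw [Fr_inner h.2.2]
    have h1 := coord2_sq_le u
    have h2 := h.2.1
    linarith

lemma enorm_sub_inv {u v : E3} (h : u ≠ v) : (‖u - v‖ₑ)⁻¹ = ENNReal.ofReal ‖u - v‖⁻¹ := by
  rw [← ofReal_norm, ENNReal.ofReal_inv_of_pos (norm_sub_pos h)]

lemma coulombCost_eq_ofReal {u v w : E3} (h1 : u ≠ v) (h2 : u ≠ w) (h3 : v ≠ w) :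
    coulombCost u v w = ENNReal.ofReal (costR u v w) := by
  unfold coulombCost costR
  have a1 := (norm_sub_pos h1)
  have a2 := (norm_sub_pos h2)
  have a3 := (norm_sub_pos h3)
  rw [enorm_sub_inv h1, enorm_sub_inv h2, enorm_sub_inv h3,
    ENNReal.ofReal_add (by positivity) (by positivity),
    ENNReal.ofReal_add (by positivity) (by positivity)]

lemma coulombCost_top_of_eq₁ {u w : E3} : coulombCost u u w = ⊤ := by
  simp [coulombCost]

lemma coulombCost_top_of_eq₂ {u v : E3} : coulombCost u v u = ⊤ := by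
  simp [coulombCost]

lemma coulombCost_top_of_eq₃ {u v : E3} : coulombCost u v v = ⊤ := by
  simp [coulombCost]

lemma VV_sum {u v w : E3} (hu : u ∈ Om) (hv : v ∈ Om) (hw : w ∈ Om) :
    VV u + VV v + VV w = ENNReal.ofReal (Ur u + Ur v + Ur w + 9) := by
  unfold VV
  rw [← ENNReal.ofReal_add (Vr_nonneg hu) (Vr_nonneg hv),
    ← ENNReal.ofReal_add (add_nonneg (Vr_nonneg hu) (Vr_nonneg hv)) (Vr_nonneg hw)]
  congr 1
  unfold Vr
  ring

lemma YY_sum {u v w : E3} (hu : u ∈ Om) (hv : v ∈ Om) (hw : w ∈ Om) :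
    YY u + YY v + YY w = ENNReal.ofReal (Fr u + Fr v + Fr w + 3) := by
  unfold YY
  rw [← ENNReal.ofReal_add (Yr_nonneg hu) (Yr_nonneg hv),
    ← ENNReal.ofReal_add (add_nonneg (Yr_nonneg hu) (Yr_nonneg hv)) (Yr_nonneg hw)]
  congr 1
  unfold Yr
  ring

lemma nine_eq : (9 : ℝ≥0∞) = ENNReal.ofReal 9 := by
  simp

lemma cost_add_nine {u v w : E3} (h1 : u ≠ v) (h2 : u ≠ w) (h3 : v ≠ w) :
    coulombCost u v w + 9 = ENNReal.ofReal (costR u v w + 9) := by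
  rw [coulombCost_eq_ofReal h1 h2 h3, nine_eq,
    ENNReal.ofReal_add (costR_pos h1 h2 h3).le (by norm_num)]

/-- The first level inequality on the support. -/
lemma VV_le {u v w : E3} (hu : u ∈ Om) (hv : v ∈ Om) (hw : w ∈ Om) :
    VV u + VV v + VV w ≤ coulombCost u v w + 9 := by
  by_cases h1 : u = v
  · subst h1; simp [coulombCost_top_of_eq₁]
  by_cases h2 : u = w
  · subst h2; simp [coulombCost_top_of_eq₂]
  by_cases h3 : v = w
  · subst h3; simp [coulombCost_top_of_eq₃]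
  rw [VV_sum hu hv hw, cost_add_nine h1 h2 h3]
  apply ENNReal.ofReal_le_ofReal
  have := U_le_cost hu hv hw h1 h2 h3
  linarith

/-- The first level equality case. -/
lemma eq_of_VV_eq {u v w : E3} (hu : u ∈ Om) (hv : v ∈ Om) (hw : w ∈ Om)
    (h : VV u + VV v + VV w = coulombCost u v w + 9) :
    u ≠ v ∧ u ≠ w ∧ v ≠ w ∧ Ur u + Ur v + Ur w = costR u v w := by
  have hfin : VV u + VV v + VV w ≠ ⊤ := by
    rw [VV_sum hu hv hw]
    exact ENNReal.ofReal_ne_top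
  have h1 : u ≠ v := by
    rintro rfl
    rw [h, coulombCost_top_of_eq₁] at hfin
    simp at hfin
  have h2 : u ≠ w := by
    rintro rfl
    rw [h, coulombCost_top_of_eq₂] at hfin
    simp at hfin
  have h3 : v ≠ w := by
    rintro rfl
    rw [h, coulombCost_top_of_eq₃] at hfin
    simp at hfin
  refine ⟨h1, h2, h3, ?_⟩
  rw [VV_sum hu hv hw, cost_add_nine h1 h2 h3] at h
  have hnn : 0 ≤ Ur u + Ur v + Ur w + 9 := by
    have a1 := Vr_nonneg hu
    have a2 := Vr_nonneg hv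
    have a3 := Vr_nonneg hw
    unfold Vr at a1 a2 a3
    linarith
  have hnn2 : 0 ≤ costR u v w + 9 := by
    have := costR_pos h1 h2 h3
    linarith
  have := (ENNReal.ofReal_eq_ofReal_iff hnn hnn2).mp h
  linarith

/-! ### The triangles of the family are contact triples -/

lemma sigma_cases {σ : ℝ} (h : σ = 1 ∨ σ = -1) : σ ^ 2 = 1 := sigma_sq h

lemma XX_mem_Om {σ : ℝ} (h : σ = 1 ∨ σ = -1) {p : Fin 3 → ℝ} (hp : p ∈ Dom) : XX σ p ∈ Om := by
  rcases h with rfl | rfl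
  · exact Or.inl (Or.inl (Or.inl (Or.inl ⟨p, hp, rfl⟩)))
  · exact Or.inl (Or.inl (Or.inl (Or.inr ⟨p, hp, rfl⟩)))

lemma W0_mem_Om {p : Fin 3 → ℝ} (hp : p ∈ Dom) : W0 p ∈ Om :=
  Or.inl (Or.inl (Or.inr ⟨p, hp, rfl⟩))

lemma WW_mem_Om {σ : ℝ} (h : σ = 1 ∨ σ = -1) {p : Fin 3 → ℝ} (hp : p ∈ Dom) : WW σ p ∈ Om := by
  rcases h with rfl | rfl
  · exact Or.inl (Or.inr ⟨p, hp, rfl⟩)
  · exact Or.inr ⟨p, hp, rfl⟩

lemma family_contact {σ : ℝ} (h : σ = 1 ∨ σ = -1) {p : Fin 3 → ℝ} (hp : p ∈ Dom) :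
    Contact σ p (XX σ p) (W0 p) (WW σ p) := by
  have hσ := sigma_sq h
  refine ⟨h, hp, rfl, innerPt_W0 hp, innerPt_WW hσ hp, dist_XX_W0 hσ hp, dist_XX_WW hσ hp,
    dist_W0_WW hσ hp, ?_⟩
  have : p 0 ^ 3 • XX σ p + W0 p + WW σ p = 0 := by
    apply ext3
    · simpa using sum_zero (σ := σ) hp 0
    · simpa using sum_zero (σ := σ) hp 1
    · simpa using sum_zero (σ := σ) hp 2
  rw [this, norm_zero]

lemma family_ne {σ : ℝ} (h : σ = 1 ∨ σ = -1) {p : Fin 3 → ℝ} (hp : p ∈ Dom) :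
    XX σ p ≠ W0 p ∧ XX σ p ≠ WW σ p ∧ W0 p ≠ WW σ p := by
  have hσ := sigma_sq h
  exact ⟨XX_ne_W hσ hp (innerPt_W0 hp), XX_ne_W hσ hp (innerPt_WW hσ hp), W0_ne_WW hσ hp hp⟩

lemma family_Ur_sum {σ : ℝ} (h : σ = 1 ∨ σ = -1) {p : Fin 3 → ℝ} (hp : p ∈ Dom) :
    Ur (XX σ p) + Ur (W0 p) + Ur (WW σ p) = costR (XX σ p) (W0 p) (WW σ p) := by
  have hσ := sigma_sq h
  have hc := family_contact h hp
  have hb : Band (p 0) := hp.1
  have ht := hb.pos
  have ha := aa_pos ht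
  have hD : 0 < aa (p 0) / p 0 := div_pos ha ht
  rw [outer_sum hσ hp hc.hy hc.hz]
  have g := star_gap ht (x := XX σ p) (y := W0 p) (z := WW σ p)
  rw [hc.d1, hc.d2, hc.d3, hc.sum] at g
  have e1 := tangent_gap (d := aa (p 0) / p 0) (D := aa (p 0) / p 0) hD hD
  have e2 := tangent_gap (d := aa (p 0)) (D := aa (p 0)) ha ha
  simp only [sub_self, ne_eq, OfNat.ofNat_ne_zero, not_false_eq_true, zero_pow, zero_mul,
    zero_div] at e1 e2
  rw [e1, e2] at g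
  simp only [add_zero] at g
  unfold costR
  rw [hc.d1, hc.d2, hc.d3]
  have e0 : (0 : ℝ) ^ 2 / (2 + p 0 ^ 3) = 0 := by simp
  linarith

lemma family_VV_sum {σ : ℝ} (h : σ = 1 ∨ σ = -1) {p : Fin 3 → ℝ} (hp : p ∈ Dom) :
    VV (XX σ p) + VV (W0 p) + VV (WW σ p) = cSig σ p + 9 := by
  obtain ⟨h1, h2, h3⟩ := family_ne h hp
  unfold cSig
  rw [VV_sum (XX_mem_Om h hp) (W0_mem_Om hp) (WW_mem_Om h hp), cost_add_nine h1 h2 h3,
    family_Ur_sum h hp]

lemma family_Fr_sum {σ : ℝ} (h : σ = 1 ∨ σ = -1) {p : Fin 3 → ℝ} (hp : p ∈ Dom) :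
    Fr (XX σ p) + Fr (W0 p) + Fr (WW σ p) = 0 := by
  have hc := family_contact h hp
  rw [hc.Fr_sum]
  have : (W0 p 0 - WW σ p 0) * (XX σ p 1) - (W0 p 1 - WW σ p 1) * (XX σ p 0) = 0 := by
    unfold W0 WW XX
    rw [mapE_0, mapE_0, mapE_0, mapE_1, mapE_1, mapE_1]
    ring
  rw [this]
  simp

lemma family_YY_sum {σ : ℝ} (h : σ = 1 ∨ σ = -1) {p : Fin 3 → ℝ} (hp : p ∈ Dom) :
    YY (XX σ p) + YY (W0 p) + YY (WW σ p) = 3 := by
  rw [YY_sum (XX_mem_Om h hp) (W0_mem_Om hp) (WW_mem_Om h hp), family_Fr_sum h hp]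
  simp

lemma cSig_le {σ : ℝ} (h : σ = 1 ∨ σ = -1) {p : Fin 3 → ℝ} (hp : p ∈ Dom) : cSig σ p ≤ 2 := by
  obtain ⟨h1, h2, h3⟩ := family_ne h hp
  have hσ := sigma_sq h
  unfold cSig
  rw [coulombCost_eq_ofReal h1 h2 h3]
  have hb : Band (p 0) := hp.1
  have ht := hb.pos
  have ha := aa_pos ht
  have ha1 := aa_one_le ht
  have : costR (XX σ p) (W0 p) (WW σ p) ≤ 2 := by
    unfold costR
    rw [dist_XX_W0 hσ hp, dist_XX_WW hσ hp, dist_W0_WW hσ hp]
    have e : (aa (p 0) / p 0)⁻¹ + (aa (p 0) / p 0)⁻¹ + (aa (p 0))⁻¹ = (2 * p 0 + 1) / aa (p 0) := by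
      field_simp
      ring
    rw [e, div_le_iff₀ ha]
    have := hb.2
    nlinarith
  calc ENNReal.ofReal _ ≤ ENNReal.ofReal 2 := ENNReal.ofReal_le_ofReal this
    _ = 2 := by simp

end Vale.Agent.Lib.P121
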