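import Mathlib

open Real Set

namespace Vale.Agent.Lib.P121

/-- The base length `a(t) = (1 + t^3/2)^(1/3)`. -/
noncomputable def aa (t : ℝ) : ℝ := (1 + t ^ 3 / 2) ^ ((1 : ℝ) / 3)

/-- The parameter band. -/
def Band (t : ℝ) : Prop := 1 / 6 < t ∧ t < 1 / 5

lemma Band.pos {t : ℝ} (h : Band t) : 0 < t := by
  have := h.1; linarith

lemma base_pos {t : ℝ} (h : 0 < t) : 0 < 1 + t ^ 3 / 2 := by positivity

lemma aa_pos {t : ℝ} (h : 0 < t) : 0 < aa t := Real.rpow_pos_of_pos (base_pos h) _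

lemma aa_cube {t : ℝ} (h : 0 < t) : aa t ^ 3 = 1 + t ^ 3 / 2 := by
  unfold aa
  rw [← Real.rpow_natCast, ← Real.rpow_mul (base_pos h).le]
  norm_num

lemma aa_one_le {t : ℝ} (h : 0 < t) : 1 ≤ aa t := by
  by_contra hc
  push Not at hc
  have h0 := aa_pos h
  have h1 := aa_cube h
  have : aa t ^ 3 < 1 := by
    calc aa t ^ 3 < 1 ^ 3 := by gcongr
      _ = 1 := by norm_num
  have : 0 < t ^ 3 / 2 := by positivity
  linarith

lemma aa_le {t : ℝ} (h : Band t) : aa t ≤ 101 / 100 := by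
  by_contra hc
  push Not at hc
  have h1 := aa_cube h.pos
  have h3 : t ^ 3 < (1 / 5) ^ 3 := by
    have := h.pos
    have := h.2
    gcongr
  have : (101 / 100 : ℝ) ^ 3 < aa t ^ 3 := by gcongr
  norm_num at *
  linarith

/-- `g(t) = sqrt(1/t^2 - 1/4) / a(t)^2`: the radius of the far point. -/
noncomputable def gg (t : ℝ) : ℝ := √(1 / t ^ 2 - 1 / 4) / aa t ^ 2

/-- `h(t) = t^3/2 * g(t)`. -/
noncomputable def hh (t : ℝ) : ℝ := t ^ 3 / 2 * gg t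

/-- squared inner radius. -/
noncomputable def SS (t : ℝ) : ℝ := hh t ^ 2 + aa t ^ 2 / 4

/-- inner radius. -/
noncomputable def RR (t : ℝ) : ℝ := √(SS t)

noncomputable def PX (t : ℝ) : ℝ := -(gg t * hh t / RR t)
noncomputable def QX (t : ℝ) : ℝ := gg t * aa t / (2 * RR t)
noncomputable def PW (t : ℝ) : ℝ := (hh t ^ 2 - aa t ^ 2 / 4) / RR t
noncomputable def QW (t : ℝ) : ℝ := hh t * aa t / RR t

lemma E2_bounds {t : ℝ} (h : Band t) : 99 / 4 < 1 / t ^ 2 - 1 / 4 ∧ 1 / t ^ 2 - 1 / 4 < 143 / 4 := by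
  obtain ⟨h1, h2⟩ := h
  have ht : 0 < t := by linarith
  have h3 : t ^ 2 < (1 / 5) ^ 2 := by gcongr
  have h4 : (1 / 6) ^ 2 < t ^ 2 := by gcongr
  have h5 : 0 < t ^ 2 := by positivity
  constructor
  · rw [lt_sub_iff_add_lt, lt_div_iff₀ h5]; nlinarith
  · rw [sub_lt_iff_lt_add, div_lt_iff₀ h5]; nlinarith

lemma sqrtE_bounds {t : ℝ} (h : Band t) :
    49 / 10 ≤ √(1 / t ^ 2 - 1 / 4) ∧ √(1 / t ^ 2 - 1 / 4) ≤ 6 := by
  obtain ⟨h1, h2⟩ := E2_bounds h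
  constructor
  · apply Real.le_sqrt_of_sq_le
    have : (49 / 10 : ℝ) ^ 2 = 2401 / 100 := by norm_num
    rw [this]; linarith
  · rw [Real.sqrt_le_left (by norm_num)]
    have : (6 : ℝ) ^ 2 = 36 := by norm_num
    rw [this]; linarith

lemma aa_sq_bounds {t : ℝ} (h : Band t) : 1 ≤ aa t ^ 2 ∧ aa t ^ 2 ≤ 10201 / 10000 := by
  have h1 := aa_one_le h.pos
  have h2 := aa_le h
  constructor <;> nlinarith

lemma gg_bounds {t : ℝ} (h : Band t) : 4 ≤ gg t ∧ gg t ≤ 6 := by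
  obtain ⟨h1, h2⟩ := sqrtE_bounds h
  obtain ⟨h3, h4⟩ := aa_sq_bounds h
  have h5 : 0 < aa t ^ 2 := by linarith
  unfold gg
  constructor
  · rw [le_div_iff₀ h5]; nlinarith
  · rw [div_le_iff₀ h5]; nlinarith

lemma gg_sq {t : ℝ} (h : Band t) : gg t ^ 2 = (1 / t ^ 2 - 1 / 4) / aa t ^ 4 := by
  obtain ⟨h1, h2⟩ := E2_bounds h
  unfold gg
  rw [div_pow, Real.sq_sqrt (by linarith)]
  ring

lemma t3_bounds {t : ℝ} (h : Band t) : 1 / 216 < t ^ 3 ∧ t ^ 3 < 1 / 125 := by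
  obtain ⟨h1, h2⟩ := h
  have ht : 0 < t := by linarith
  have h3 : t ^ 3 < (1 / 5) ^ 3 := by gcongr
  have h4 : (1 / 6) ^ 3 < t ^ 3 := by gcongr
  norm_num at *
  exact ⟨h4, h3⟩

lemma hh_bounds {t : ℝ} (h : Band t) : 1 / 200 ≤ hh t ∧ hh t ≤ 1 / 40 := by
  obtain ⟨h1, h2⟩ := gg_bounds h
  obtain ⟨h3, h4⟩ := t3_bounds h
  unfold hh
  constructor <;> nlinarith

lemma SS_bounds {t : ℝ} (h : Band t) : 1 / 4 ≤ SS t ∧ SS t ≤ 13 / 50 := by
  obtain ⟨h1, h2⟩ := hh_bounds h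
  obtain ⟨h3, h4⟩ := aa_sq_bounds h
  unfold SS
  constructor <;> nlinarith

lemma RR_bounds {t : ℝ} (h : Band t) : 1 / 2 ≤ RR t ∧ RR t ≤ 51 / 100 := by
  obtain ⟨h1, h2⟩ := SS_bounds h
  unfold RR
  constructor
  · apply Real.le_sqrt_of_sq_le; norm_num; linarith
  · rw [Real.sqrt_le_left (by norm_num)]; norm_num; linarith

lemma RR_pos {t : ℝ} (h : Band t) : 0 < RR t := by
  have := (RR_bounds h).1; linarith

lemma RR_sq {t : ℝ} (h : Band t) : RR t ^ 2 = hh t ^ 2 + aa t ^ 2 / 4 := by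
  unfold RR
  rw [Real.sq_sqrt]
  · rfl
  · have := (SS_bounds h).1; linarith

lemma PX_QX_sq {t : ℝ} (h : Band t) : PX t ^ 2 + QX t ^ 2 = gg t ^ 2 := by
  have hR := RR_pos h
  have h2 := RR_sq h
  unfold PX QX
  field_simp
  nlinarith [h2]

lemma PW_QW_sq {t : ℝ} (h : Band t) : PW t ^ 2 + QW t ^ 2 = RR t ^ 2 := by
  have hR := RR_pos h
  have h2 := RR_sq h
  unfold PW QW
  field_simp
  have h4 : RR t ^ 4 = (RR t ^ 2) ^ 2 := by ring
  rw [h4, h2]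
  ring

/-- `g + h = a * sqrt (1/t^2 - 1/4)`. -/
lemma gg_add_hh {t : ℝ} (h : Band t) : gg t + hh t = aa t * √(1 / t ^ 2 - 1 / 4) := by
  have h1 := aa_cube h.pos
  have h2 := aa_pos h.pos
  have h3 : gg t + hh t = (1 + t ^ 3 / 2) * gg t := by unfold hh; ring
  rw [h3, ← h1]
  unfold gg
  field_simp

lemma gg_add_hh_sq {t : ℝ} (h : Band t) :
    (gg t + hh t) ^ 2 + aa t ^ 2 / 4 = aa t ^ 2 / t ^ 2 := by
  obtain ⟨h1, h2⟩ := E2_bounds h
  have ht := h.pos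
  rw [gg_add_hh h, mul_pow, Real.sq_sqrt (by linarith)]
  field_simp
  ring

/-! ### Derivatives -/

lemma aa_differentiableAt {t : ℝ} (h : 0 < t) : DifferentiableAt ℝ aa t := by
  unfold aa
  apply DifferentiableAt.rpow_const
  · fun_prop
  · left; exact (base_pos h).ne'

lemma eventually_pos {t : ℝ} (h : 0 < t) : ∀ᶠ s in nhds t, 0 < s := lt_mem_nhds h

lemma aa_hasDerivAt {t : ℝ} (h : 0 < t) : HasDerivAt aa (t ^ 2 / (2 * aa t ^ 2)) t := by
  have hd := (aa_differentiableAt h).hasDerivAt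
  have h1 : HasDerivAt (fun s => aa s ^ 3) (3 * aa t ^ 2 * deriv aa t) t := by
    simpa using hd.fun_pow 3
  have h2 : HasDerivAt (fun s : ℝ => 1 + s ^ 3 / 2) (3 * t ^ 2 / 2) t := by
    have := ((hasDerivAt_id' t).fun_pow 3).div_const 2
    simpa using this.const_add 1
  have h3 : HasDerivAt (fun s => aa s ^ 3) (3 * t ^ 2 / 2) t := by
    refine h2.congr_of_eventuallyEq ?_
    filter_upwards [eventually_pos h] with s hs
    exact aa_cube hs
  have h4 := h1.unique h3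
  have h5 := aa_pos h
  have h6 : deriv aa t = t ^ 2 / (2 * aa t ^ 2) := by
    field_simp
    nlinarith [h4]
  rw [← h6]
  exact hd

/-- closed form for the squared outer radius -/
noncomputable def GG (t : ℝ) : ℝ := (1 / t ^ 2 - 1 / 4) / aa t ^ 4

/-- derivative of `GG` -/
noncomputable def dGG (t : ℝ) : ℝ :=
  (-2 / t ^ 3) / aa t ^ 4 - 4 * (1 / t ^ 2 - 1 / 4) * (t ^ 2 / (2 * aa t ^ 2)) / aa t ^ 5

lemma GG_hasDerivAt {t : ℝ} (h : 0 < t) : HasDerivAt GG (dGG t) t := by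
  have h0 := aa_pos h
  have hE : HasDerivAt (fun s : ℝ => 1 / s ^ 2 - 1 / 4) (-2 / t ^ 3) t := by
    have h1 : HasDerivAt (fun s : ℝ => s ^ 2) (2 * t) t := by
      simpa using (hasDerivAt_id' t).fun_pow 2
    have h2 := (h1.fun_inv (by positivity)).sub_const (1 / 4)
    have h3 : (fun s : ℝ => 1 / s ^ 2 - 1 / 4) = (fun s : ℝ => (s ^ 2)⁻¹ - 1 / 4) := by
      funext s; simp
    rw [h3]
    exact h2.congr_deriv (by field_simp)
  have h4 : HasDerivAt (fun s => aa s ^ 4) (4 * aa t ^ 3 * (t ^ 2 / (2 * aa t ^ 2))) t := by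
    simpa using (aa_hasDerivAt h).fun_pow 4
  have := hE.fun_div h4 (by positivity)
  refine this.congr_deriv ?_
  unfold dGG
  field_simp

lemma dGG_neg {t : ℝ} (h : Band t) : dGG t < 0 := by
  have ht := h.pos
  have h0 := aa_pos ht
  obtain ⟨h1, h2⟩ := E2_bounds h
  unfold dGG
  have h3 : 0 < (2 / t ^ 3) / aa t ^ 4 := by positivity
  have h4 : 0 < 4 * (1 / t ^ 2 - 1 / 4) * (t ^ 2 / (2 * aa t ^ 2)) / aa t ^ 5 := by
    have : 0 < 1 / t ^ 2 - 1 / 4 := by linarith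
    positivity
  have h5 : (-2 / t ^ 3) / aa t ^ 4 = -((2 / t ^ 3) / aa t ^ 4) := by ring
  rw [h5]
  linarith

lemma gg_sq_eq_GG {t : ℝ} (h : Band t) : gg t ^ 2 = GG t := gg_sq h

lemma eventually_band {t : ℝ} (h : Band t) : ∀ᶠ s in nhds t, Band s := by
  filter_upwards [lt_mem_nhds h.1, gt_mem_nhds h.2] with s h1 h2
  exact ⟨h1, h2⟩

/-- closed form of the squared inner radius -/
noncomputable def SSf (t : ℝ) : ℝ := t ^ 6 / 4 * GG t + aa t ^ 2 / 4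

lemma SS_eq_SSf {t : ℝ} (h : Band t) : SS t = SSf t := by
  unfold SS SSf hh
  rw [mul_pow, gg_sq_eq_GG h]
  ring

/-- derivative of the inner squared radius -/
noncomputable def dSS (t : ℝ) : ℝ :=
  6 * t ^ 5 / 4 * GG t + t ^ 6 / 4 * dGG t + 2 * aa t * (t ^ 2 / (2 * aa t ^ 2)) / 4

lemma SS_hasDerivAt {t : ℝ} (h : Band t) : HasDerivAt SS (dSS t) t := by
  have ht := h.pos
  have h1 : HasDerivAt (fun s : ℝ => s ^ 6 / 4) (6 * t ^ 5 / 4) t := by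
    simpa using ((hasDerivAt_id' t).fun_pow 6).div_const 4
  have h2 := h1.fun_mul (GG_hasDerivAt ht)
  have h3 : HasDerivAt (fun s => aa s ^ 2 / 4) (2 * aa t * (t ^ 2 / (2 * aa t ^ 2)) / 4) t := by
    simpa using ((aa_hasDerivAt ht).fun_pow 2).div_const 4
  have h4 := h2.fun_add h3
  unfold dSS
  refine h4.congr_of_eventuallyEq ?_
  filter_upwards [eventually_band h] with s hs
  exact SS_eq_SSf hs

lemma dSS_pos {t : ℝ} (h : Band t) : 0 < dSS t := by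
  have ht := h.pos
  have h0 := aa_pos ht
  have h1 := aa_one_le ht
  obtain ⟨h2, h3⟩ := E2_bounds h
  have hb1 := h.1
  have hb2 := h.2
  have key : dSS t = t ^ 3 / aa t ^ 4 * (3 / 2 * (1 - t ^ 2 / 4) - 1 / 2)
      + (t ^ 2 / (2 * aa t ^ 2)) * (aa t / 2 - t ^ 4 * (1 - t ^ 2 / 4) / aa t ^ 5) := by
    unfold dSS dGG GG
    field_simp
    ring
  rw [key]
  have h4 : 0 < 1 - t ^ 2 / 4 := by nlinarith
  have h5 : 0 < 3 / 2 * (1 - t ^ 2 / 4) - 1 / 2 := by nlinarith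
  have h6 : t ^ 4 * (1 - t ^ 2 / 4) / aa t ^ 5 ≤ 1 / 4 := by
    have h7 : 1 ≤ aa t ^ 5 := one_le_pow₀ h1
    have h8 : t ^ 2 < 1 / 25 := by nlinarith
    have h9 : t ^ 4 < 1 / 625 := by nlinarith
    rw [div_le_iff₀ (by positivity)]
    nlinarith [sq_nonneg (t ^ 2)]
  have h10 : 0 < aa t / 2 - t ^ 4 * (1 - t ^ 2 / 4) / aa t ^ 5 := by linarith
  positivity

end Vale.Agent.Lib.P121
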