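import Vale.Agent.Lib.P121.Dual

open Real Set MeasureTheory
open scoped ENNReal

namespace Vale.Agent.Lib.P121

/-! ### Integrals against the counterexample measure -/

lemma lintegral_add3 {α : Type*} [MeasurableSpace α] {m : Measure α} {a b c : α → ℝ≥0∞}
    (ha : Measurable a) (hb : Measurable b) :
    ∫⁻ x, (a x + b x + c x) ∂m = ∫⁻ x, a x ∂m + ∫⁻ x, b x ∂m + ∫⁻ x, c x ∂m := by
  have hab : Measurable (fun x => a x + b x) := ha.add hb
  rw [lintegral_add_left hab, lintegral_add_left ha]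

lemma lintegral_muC {f : E3 → ℝ≥0∞} (hf : Measurable f) :
    ∫⁻ x, f x ∂muC = kap * (∫⁻ p, (f (XX 1 p) + f (W0 p) + f (WW 1 p)) ∂nu
      + ∫⁻ p, (f (XX (-1) p) + f (W0 p) + f (WW (-1) p)) ∂nu) := by
  have m1 := measurable_XX 1
  have m2 := measurable_XX (-1)
  have m3 := measurable_WW 1
  have m4 := measurable_WW (-1)
  have m5 := measurable_W0
  unfold muC
  rw [lintegral_smul_measure, smul_eq_mul]
  congr 1
  simp only [lintegral_add_measure]
  rw [lintegral_map hf m1, lintegral_map hf m2, lintegral_map hf m3, lintegral_map hf m4,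
    lintegral_map hf m5]
  rw [lintegral_add3 (a := fun p => f (XX 1 p)) (b := fun p => f (W0 p)) (hf.comp m1) (hf.comp m5),
    lintegral_add3 (a := fun p => f (XX (-1) p)) (b := fun p => f (W0 p)) (hf.comp m2) (hf.comp m5)]
  ring

lemma ae_mem_Dom : ∀ᵐ p ∂nu, p ∈ Dom := ae_restrict_mem measurableSet_Dom

/-- The cost of the reference plan. -/
noncomputable def kval : ℝ≥0∞ := kap * (3 * ∫⁻ p, cSig 1 p ∂nu + 3 * ∫⁻ p, cSig (-1) p ∂nu)

lemma lintegral_cSig_lt {σ : ℝ} (h : σ = 1 ∨ σ = -1) : ∫⁻ p, cSig σ p ∂nu ≠ ⊤ := by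
  have h1 : ∫⁻ p, cSig σ p ∂nu ≤ ∫⁻ _, 2 ∂nu := by
    apply lintegral_mono_ae
    filter_upwards [ae_mem_Dom] with p hp
    exact cSig_le h hp
  refine ne_top_of_le_ne_top ?_ h1
  rw [lintegral_const]
  exact ENNReal.mul_ne_top (by norm_num) (measure_ne_top _ _)

lemma kval_ne_top : kval ≠ ⊤ := by
  unfold kval
  refine ENNReal.mul_ne_top kap_ne_top (ENNReal.add_ne_top.mpr ⟨?_, ?_⟩)
  · exact ENNReal.mul_ne_top (by norm_num) (lintegral_cSig_lt (Or.inl rfl))
  · exact ENNReal.mul_ne_top (by norm_num) (lintegral_cSig_lt (Or.inr rfl))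

lemma lintegral_family_VV {σ : ℝ} (h : σ = 1 ∨ σ = -1) :
    ∫⁻ p, (VV (XX σ p) + VV (W0 p) + VV (WW σ p)) ∂nu = ∫⁻ p, cSig σ p ∂nu + 9 * nu univ := by
  have h1 : ∫⁻ p, (VV (XX σ p) + VV (W0 p) + VV (WW σ p)) ∂nu = ∫⁻ p, (cSig σ p + 9) ∂nu := by
    apply lintegral_congr_ae
    filter_upwards [ae_mem_Dom] with p hp
    exact family_VV_sum h hp
  rw [h1, lintegral_add_right _ measurable_const, lintegral_const]

lemma three_VV : 3 * ∫⁻ x, VV x ∂muC = kval + 9 := by
  rw [lintegral_muC measurable_VV, lintegral_family_VV (Or.inl rfl), lintegral_family_VV (Or.inr rfl)]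
  unfold kval
  set A := ∫⁻ p, cSig 1 p ∂nu
  set B := ∫⁻ p, cSig (-1) p ∂nu
  set N := nu univ
  have h := kap_mul
  have : 3 * (kap * (A + 9 * N + (B + 9 * N))) = kap * (3 * A + 3 * B) + 9 * (kap * (6 * N)) := by
    ring
  rw [this, h]
  simp

lemma lintegral_YY : ∫⁻ x, YY x ∂muC = 1 := by
  rw [lintegral_muC measurable_YY]
  have h1 : ∀ σ : ℝ, (σ = 1 ∨ σ = -1) →
      ∫⁻ p, (YY (XX σ p) + YY (W0 p) + YY (WW σ p)) ∂nu = 3 * nu univ := by
    intro σ h
    have h2 : ∫⁻ p, (YY (XX σ p) + YY (W0 p) + YY (WW σ p)) ∂nu = ∫⁻ _, 3 ∂nu := by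
      apply lintegral_congr_ae
      filter_upwards [ae_mem_Dom] with p hp
      exact family_YY_sum h hp
    rw [h2, lintegral_const]
  rw [h1 1 (Or.inl rfl), h1 (-1) (Or.inr rfl), ← kap_mul]
  congr 1
  ring

/-! ### The support has full measure -/

lemma nu_null {s : Set (Fin 3 → ℝ)} (h : ∀ p ∈ Dom, p ∉ s) : nu s = 0 := by
  rw [Measure.restrict_apply' measurableSet_Dom]
  have : s ∩ Dom = ∅ := by
    ext p
    simp only [mem_inter_iff, mem_empty_iff_false, iff_false, not_and]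
    intro hs hd
    exact h p hd hs
  rw [this, measure_empty]

lemma measurableSet_image_XX {σ : ℝ} (h : σ = 1 ∨ σ = -1) {A : Set (Fin 3 → ℝ)}
    (hA : MeasurableSet A) (hAD : A ⊆ Dom) : MeasurableSet (XX σ '' A) :=
  hA.image_of_measurable_injOn (measurable_XX σ) ((injOn_XX h).mono hAD)

lemma measurableSet_image_WW {σ : ℝ} (h : σ = 1 ∨ σ = -1) {A : Set (Fin 3 → ℝ)}
    (hA : MeasurableSet A) (hAD : A ⊆ Dom) : MeasurableSet (WW σ '' A) :=
  hA.image_of_measurable_injOn (measurable_WW σ) ((injOn_WW h).mono hAD)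

lemma measurableSet_image_W0 {A : Set (Fin 3 → ℝ)}
    (hA : MeasurableSet A) (hAD : A ⊆ Dom) : MeasurableSet (W0 '' A) :=
  hA.image_of_measurable_injOn measurable_W0 (injOn_W0.mono hAD)

lemma measurableSet_Om : MeasurableSet Om := by
  have hD := measurableSet_Dom
  exact (((((measurableSet_image_XX (Or.inl rfl) hD subset_rfl).union
    (measurableSet_image_XX (Or.inr rfl) hD subset_rfl)).union
    (measurableSet_image_W0 hD subset_rfl)).union
    (measurableSet_image_WW (Or.inl rfl) hD subset_rfl)).union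
    (measurableSet_image_WW (Or.inr rfl) hD subset_rfl))

lemma ae_mem_Om : ∀ᵐ x ∂muC, x ∈ Om := by
  have h0 : muC Omᶜ = 0 := by
    rw [muC_apply measurableSet_Om.compl]
    have h1 : nu (XX 1 ⁻¹' Omᶜ) = 0 := nu_null (fun p hp h => h (XX_mem_Om (Or.inl rfl) hp))
    have h2 : nu (XX (-1) ⁻¹' Omᶜ) = 0 := nu_null (fun p hp h => h (XX_mem_Om (Or.inr rfl) hp))
    have h3 : nu (WW 1 ⁻¹' Omᶜ) = 0 := nu_null (fun p hp h => h (WW_mem_Om (Or.inl rfl) hp))
    have h4 : nu (WW (-1) ⁻¹' Omᶜ) = 0 := nu_null (fun p hp h => h (WW_mem_Om (Or.inr rfl) hp))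
    have h5 : nu (W0 ⁻¹' Omᶜ) = 0 := nu_null (fun p hp h => h (W0_mem_Om hp))
    rw [h1, h2, h3, h4, h5]
    simp
  exact measure_eq_zero_iff_ae_notMem.mp h0 |>.mono (fun x hx => by simpa using hx)

/-! ### From optimality to the structure of the triples -/

/-- The triple is, up to order, one of the triangles of the family. -/
def Typed (u v w : E3) : Prop :=
  ∃ σ p, (σ = 1 ∨ σ = -1) ∧ p ∈ Dom ∧ [u, v, w].Perm [XX σ p, W0 p, WW σ p]

lemma list_sum_perm {f : E3 → ℝ} {u v w a b c : E3} (h : [u, v, w].Perm [a, b, c]) :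
    f u + f v + f w = f a + f b + f c := by
  have := (h.map f).sum_eq
  simp only [List.map_cons, List.map_nil, List.sum_cons, List.sum_nil, add_zero] at this
  linarith

lemma list_sum_perm' {f : E3 → ℝ≥0∞} {u v w a b c : E3} (h : [u, v, w].Perm [a, b, c]) :
    f u + f v + f w = f a + f b + f c := by
  have := (h.map f).sum_eq
  simp only [List.map_cons, List.map_nil, List.sum_cons, List.sum_nil, add_zero] at this
  rw [add_assoc, this, add_assoc]

lemma contact_triple {u v w : E3} (hu : u ∈ Om) (hv : v ∈ Om) (hw : w ∈ Om)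
    (h1 : VV u + VV v + VV w = coulombCost u v w + 9) :
    ∃ σ p x y z, [u, v, w].Perm [x, y, z] ∧ Contact σ p x y z := by
  obtain ⟨a1, a2, a3, a4⟩ := eq_of_VV_eq hu hv hw h1
  exact contact_of_eq hu hv hw a1 a2 a3 a4

lemma three_le_YY {u v w : E3} (hu : u ∈ Om) (hv : v ∈ Om) (hw : w ∈ Om)
    (h1 : VV u + VV v + VV w = coulombCost u v w + 9) : 3 ≤ YY u + YY v + YY w := by
  obtain ⟨σ, p, x, y, z, hp, hc⟩ := contact_triple hu hv hw h1
  rw [YY_sum hu hv hw]
  have h2 := hc.Fr_nonneg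
  rw [← list_sum_perm hp] at h2
  have h3 : (3 : ℝ≥0∞) = ENNReal.ofReal 3 := by simp
  rw [h3]
  apply ENNReal.ofReal_le_ofReal
  linarith

lemma typed_of_eq {u v w : E3} (hu : u ∈ Om) (hv : v ∈ Om) (hw : w ∈ Om)
    (h1 : VV u + VV v + VV w = coulombCost u v w + 9) (h2 : YY u + YY v + YY w = 3) :
    Typed u v w := by
  obtain ⟨σ, p, x, y, z, hp, hc⟩ := contact_triple hu hv hw h1
  rw [YY_sum hu hv hw] at h2
  have h3 : (3 : ℝ≥0∞) = ENNReal.ofReal 3 := by simp
  rw [h3] at h2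
  have h4 : 0 ≤ Fr u + Fr v + Fr w + 3 := by
    have := hc.Fr_nonneg
    rw [← list_sum_perm hp] at this
    linarith
  have h5 := (ENNReal.ofReal_eq_ofReal_iff h4 (by norm_num)).mp h2
  have h6 : Fr x + Fr y + Fr z = 0 := by
    rw [← list_sum_perm hp]
    linarith
  refine ⟨σ, p, hc.sign, hc.mem, ?_⟩
  rcases hc.typed h6 with ⟨rfl, rfl⟩ | ⟨rfl, rfl⟩
  · rw [hc.hx] at hp
    exact hp
  · rw [hc.hx] at hp
    exact hp.trans (List.Perm.cons _ (List.Perm.swap _ _ _))

lemma ae_comp_of_map {T : E3 → E3} (hT : Measurable T) (hpush : muC.map T = muC) {P : E3 → Prop}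
    (h : ∀ᵐ x ∂muC, P x) : ∀ᵐ x ∂muC, P (T x) := by
  rw [← hpush] at h
  exact ae_of_ae_map hT.aemeasurable h

lemma lintegral_comp_of_map {T : E3 → E3} (hT : Measurable T) (hpush : muC.map T = muC)
    {f : E3 → ℝ≥0∞} (hf : Measurable f) : ∫⁻ x, f (T x) ∂muC = ∫⁻ x, f x ∂muC := by
  conv_rhs => rw [← hpush]
  rw [lintegral_map hf hT]

/-- An optimal Monge plan would be carried by the triangles of the family. -/
lemma typed_of_monge {T₂ T₃ : E3 → E3} (hM : IsMongePair muC T₂ T₃)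
    (hcost : mongeCost muC T₂ T₃ ≤ kval) : ∀ᵐ w ∂muC, Typed w (T₂ w) (T₃ w) := by
  have m2 := hM.meas_two
  have m3 := hM.meas_three
  have p2 := hM.push_two
  have p3 := hM.push_three
  have a1 := ae_mem_Om
  have a2 := ae_comp_of_map m2 p2 a1
  have a3 := ae_comp_of_map m3 p3 a1
  -- integral of the three potentials
  have hV : ∫⁻ w, (VV w + VV (T₂ w) + VV (T₃ w)) ∂muC = kval + 9 := by
    rw [lintegral_add3 (a := fun w => VV w) (b := fun w => VV (T₂ w)) measurable_VV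
      (measurable_VV.comp m2), lintegral_comp_of_map m2 p2 measurable_VV,
      lintegral_comp_of_map m3 p3 measurable_VV, ← three_VV]
    ring
  have hY : ∫⁻ w, (YY w + YY (T₂ w) + YY (T₃ w)) ∂muC = 3 := by
    rw [lintegral_add3 (a := fun w => YY w) (b := fun w => YY (T₂ w)) measurable_YY
      (measurable_YY.comp m2), lintegral_comp_of_map m2 p2 measurable_YY,
      lintegral_comp_of_map m3 p3 measurable_YY, lintegral_YY]
    norm_num
  -- first level
  have hcm : Measurable (fun w => coulombCost w (T₂ w) (T₃ w)) := by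
    have e : (fun w => coulombCost w (T₂ w) (T₃ w))
        = (fun q : E3 × E3 × E3 => coulombCost q.1 q.2.1 q.2.2) ∘ (fun w => (w, T₂ w, T₃ w)) := by
      funext w
      rfl
    rw [e]
    exact measurable_coulombCost.comp (measurable_id.prodMk (m2.prodMk m3))
  have e1 : ∀ᵐ w ∂muC, VV w + VV (T₂ w) + VV (T₃ w) = coulombCost w (T₂ w) (T₃ w) + 9 := by
    apply ae_eq_of_ae_le_of_lintegral_le
    · filter_upwards [a1, a2, a3] with w h1 h2 h3
      exact VV_le h1 h2 h3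
    · rw [hV]
      exact ENNReal.add_ne_top.mpr ⟨kval_ne_top, by norm_num⟩
    · exact (hcm.add measurable_const).aemeasurable
    · rw [hV, lintegral_add_right _ measurable_const, lintegral_const, measure_univ, mul_one]
      gcongr
      exact hcost
  -- second level
  have e2 : ∀ᵐ w ∂muC, (3 : ℝ≥0∞) = YY w + YY (T₂ w) + YY (T₃ w) := by
    apply ae_eq_of_ae_le_of_lintegral_le
    · filter_upwards [a1, a2, a3, e1] with w h1 h2 h3 h4
      exact three_le_YY h1 h2 h3 h4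
    · rw [lintegral_const, measure_univ, mul_one]
      norm_num
    · exact ((measurable_YY.add (measurable_YY.comp m2)).add (measurable_YY.comp m3)).aemeasurable
    · rw [hY, lintegral_const, measure_univ, mul_one]
  filter_upwards [a1, a2, a3, e1, e2] with w h1 h2 h3 h4 h5
  exact typed_of_eq h1 h2 h3 h4 h5.symm

/-! ### The mass count -/

lemma nu_preimage_self {f : (Fin 3 → ℝ) → E3} (hf : InjOn f Dom) {A : Set (Fin 3 → ℝ)}
    (hAD : A ⊆ Dom) : nu (f ⁻¹' (f '' A)) = nu A := by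
  rw [Measure.restrict_apply' measurableSet_Dom, Measure.restrict_apply' measurableSet_Dom]
  congr 1
  ext p
  constructor
  · rintro ⟨⟨q, hq, hqp⟩, hp⟩
    have : q = p := hf (hAD hq) hp hqp
    rw [this] at hq
    exact ⟨hq, hp⟩
  · rintro ⟨hp, hd⟩
    exact ⟨⟨p, hp, rfl⟩, hd⟩

lemma muC_XX_image {σ : ℝ} (h : σ = 1 ∨ σ = -1) {A : Set (Fin 3 → ℝ)}
    (hA : MeasurableSet A) (hAD : A ⊆ Dom) : muC (XX σ '' A) = kap * nu A := by
  have hσ := sigma_sq h
  rw [muC_apply (measurableSet_image_XX h hA hAD)]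
  have hW0 : nu (W0 ⁻¹' (XX σ '' A)) = 0 := by
    apply nu_null
    rintro p hp ⟨q, hq, hqp⟩
    exact XX_ne_W hσ (hAD hq) (innerPt_W0 hp) hqp
  have hW : ∀ σ' : ℝ, (σ' = 1 ∨ σ' = -1) → nu (WW σ' ⁻¹' (XX σ '' A)) = 0 := by
    intro σ' hs
    apply nu_null
    rintro p hp ⟨q, hq, hqp⟩
    exact XX_ne_W hσ (hAD hq) (innerPt_WW (sigma_sq hs) hp) hqp
  rw [hW0, hW 1 (Or.inl rfl), hW (-1) (Or.inr rfl)]
  rcases h with rfl | rfl
  · have h1 : nu (XX (-1) ⁻¹' (XX 1 '' A)) = 0 := by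
      apply nu_null
      rintro p hp ⟨q, hq, hqp⟩
      exact X1_ne_X2 (hAD hq) hp hqp
    rw [h1, nu_preimage_self (injOn_XX (Or.inl rfl)) hAD]
    simp
  · have h1 : nu (XX 1 ⁻¹' (XX (-1) '' A)) = 0 := by
      apply nu_null
      rintro p hp ⟨q, hq, hqp⟩
      exact X1_ne_X2 hp (hAD hq) hqp.symm
    rw [h1, nu_preimage_self (injOn_XX (Or.inr rfl)) hAD]
    simp

lemma muC_WW_image {σ : ℝ} (h : σ = 1 ∨ σ = -1) {A : Set (Fin 3 → ℝ)}
    (hA : MeasurableSet A) (hAD : A ⊆ Dom) : muC (WW σ '' A) = kap * nu A := by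
  have hσ := sigma_sq h
  rw [muC_apply (measurableSet_image_WW h hA hAD)]
  have hW0 : nu (W0 ⁻¹' (WW σ '' A)) = 0 := by
    apply nu_null
    rintro p hp ⟨q, hq, hqp⟩
    exact W0_ne_WW hσ hp (hAD hq) hqp.symm
  have hX : ∀ σ' : ℝ, (σ' = 1 ∨ σ' = -1) → nu (XX σ' ⁻¹' (WW σ '' A)) = 0 := by
    intro σ' hs
    apply nu_null
    rintro p hp ⟨q, hq, hqp⟩
    exact XX_ne_W (sigma_sq hs) hp (innerPt_WW hσ (hAD hq)) hqp.symm
  rw [hW0, hX 1 (Or.inl rfl), hX (-1) (Or.inr rfl)]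
  rcases h with rfl | rfl
  · have h1 : nu (WW (-1) ⁻¹' (WW 1 '' A)) = 0 := by
      apply nu_null
      rintro p hp ⟨q, hq, hqp⟩
      exact W1_ne_W2 (hAD hq) hp hqp
    rw [h1, nu_preimage_self (injOn_WW (Or.inl rfl)) hAD]
    simp
  · have h1 : nu (WW 1 ⁻¹' (WW (-1) '' A)) = 0 := by
      apply nu_null
      rintro p hp ⟨q, hq, hqp⟩
      exact W1_ne_W2 hp (hAD hq) hqp.symm
    rw [h1, nu_preimage_self (injOn_WW (Or.inr rfl)) hAD]
    simp

/-- The pointwise bound behind the mass count. -/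
lemma indicator_sum_le {σ : ℝ} (h : σ = 1 ∨ σ = -1) {A : Set (Fin 3 → ℝ)} (hAD : A ⊆ Dom)
    {T₂ : E3 → E3} (hA : ∀ p ∈ A, T₂ (W0 p) ∉ XX σ '' Dom ∧ T₂ (W0 p) ∉ WW σ '' Dom)
    {w z : E3} (ht : Typed w (T₂ w) z) :
    (XX σ '' A).indicator (1 : E3 → ℝ≥0∞) w + (XX σ '' A).indicator (1 : E3 → ℝ≥0∞) (T₂ w)
      + (XX σ '' A).indicator (1 : E3 → ℝ≥0∞) z
      ≤ (XX σ '' A ∪ WW σ '' A).indicator (1 : E3 → ℝ≥0∞) w := by
  have hσ := sigma_sq h
  obtain ⟨σ', p, hs', hp, hperm⟩ := ht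
  have hσ' := sigma_sq hs'
  set i : E3 → ℝ≥0∞ := (XX σ '' A).indicator (1 : E3 → ℝ≥0∞) with hi
  rw [list_sum_perm' (f := i) hperm]
  have h0 : i (W0 p) = 0 := by
    rw [hi, indicator_of_notMem]
    rintro ⟨q, hq, hqp⟩
    exact XX_ne_W hσ (hAD hq) (innerPt_W0 hp) hqp
  have h1 : i (WW σ' p) = 0 := by
    rw [hi, indicator_of_notMem]
    rintro ⟨q, hq, hqp⟩
    exact XX_ne_W hσ (hAD hq) (innerPt_WW hσ' hp) hqp
  rw [h0, h1, add_zero, add_zero]
  by_cases hmem : XX σ' p ∈ XX σ '' A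
  · -- the triangle is of type `σ` with parameter in `A`
    obtain ⟨q, hq, hqp⟩ := hmem
    have hsame : σ' = σ := by
      rcases h with rfl | rfl <;> rcases hs' with rfl | rfl
      · rfl
      · exact absurd hqp (X1_ne_X2 (hAD hq) hp)
      · exact absurd hqp.symm (X1_ne_X2 hp (hAD hq))
      · rfl
    subst hsame
    have hqe : q = p := injOn_XX h (hAD hq) hp hqp
    subst hqe
    have hmemw : w ∈ [XX σ' q, W0 q, WW σ' q] := by
      rw [← hperm.mem_iff]
      simp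
    simp only [List.mem_cons, List.not_mem_nil, or_false] at hmemw
    have hin : w ∈ XX σ' '' A ∪ WW σ' '' A := by
      rcases hmemw with hw | hw | hw
      · exact Or.inl ⟨q, hq, hw.symm⟩
      · exfalso
        subst hw
        have hp2 : [T₂ (W0 q), z].Perm [XX σ' q, WW σ' q] := by
          have : [W0 q, T₂ (W0 q), z].Perm [W0 q, XX σ' q, WW σ' q] :=
            hperm.trans (List.Perm.swap _ _ _)
          exact List.Perm.cons_inv this
        have hm : T₂ (W0 q) ∈ [XX σ' q, WW σ' q] := by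
          rw [← hp2.mem_iff]
          simp
        simp only [List.mem_cons, List.not_mem_nil, or_false] at hm
        obtain ⟨a1, a2⟩ := hA q hq
        rcases hm with hm | hm
        · exact a1 ⟨q, hAD hq, hm.symm⟩
        · exact a2 ⟨q, hAD hq, hm.symm⟩
      · exact Or.inr ⟨q, hq, hw.symm⟩
    rw [indicator_of_mem hin]
    simp only [Pi.one_apply]
    exact indicator_le_self' (fun _ _ => _root_.zero_le) _
  · rw [hi, indicator_of_notMem hmem]
    exact _root_.zero_le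

lemma measurable_indicator_one {s : Set E3} (hs : MeasurableSet s) :
    Measurable (s.indicator (1 : E3 → ℝ≥0∞)) :=
  measurable_one.indicator hs

/-- The mass count: on a set of parameters where the shared near point does not use type `σ`,
the mass must vanish. -/
lemma count_zero {T₂ T₃ : E3 → E3} (hM : IsMongePair muC T₂ T₃)
    (htyped : ∀ᵐ w ∂muC, Typed w (T₂ w) (T₃ w))
    {σ : ℝ} (h : σ = 1 ∨ σ = -1) {A : Set (Fin 3 → ℝ)} (hAm : MeasurableSet A) (hAD : A ⊆ Dom)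
    (hA : ∀ p ∈ A, T₂ (W0 p) ∉ XX σ '' Dom ∧ T₂ (W0 p) ∉ WW σ '' Dom) : nu A = 0 := by
  have m2 := hM.meas_two
  have m3 := hM.meas_three
  have p2 := hM.push_two
  have p3 := hM.push_three
  have hS := measurableSet_image_XX h hAm hAD
  have hS' := measurableSet_image_WW h hAm hAD
  have hi := measurable_indicator_one hS
  have key : ∫⁻ w, ((XX σ '' A).indicator (1 : E3 → ℝ≥0∞) w
        + (XX σ '' A).indicator (1 : E3 → ℝ≥0∞) (T₂ w)
        + (XX σ '' A).indicator (1 : E3 → ℝ≥0∞) (T₃ w)) ∂muC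
      ≤ ∫⁻ w, (XX σ '' A ∪ WW σ '' A).indicator (1 : E3 → ℝ≥0∞) w ∂muC := by
    apply lintegral_mono_ae
    filter_upwards [htyped] with w hw
    exact indicator_sum_le h hAD hA hw
  rw [lintegral_add3 (a := fun w => (XX σ '' A).indicator (1 : E3 → ℝ≥0∞) w)
      (b := fun w => (XX σ '' A).indicator (1 : E3 → ℝ≥0∞) (T₂ w)) hi (hi.comp m2),
    lintegral_comp_of_map m2 p2 hi, lintegral_comp_of_map m3 p3 hi,
    lintegral_indicator_one hS, lintegral_indicator_one (hS.union hS')] at key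
  have hm1 := muC_XX_image h hAm hAD
  have hm2 := muC_WW_image h hAm hAD
  have h3 : muC (XX σ '' A ∪ WW σ '' A) ≤ muC (XX σ '' A) + muC (WW σ '' A) :=
    measure_union_le _ _
  rw [hm1] at key h3
  rw [hm2] at h3
  set m := kap * nu A with hm
  have hfin : m ≠ ⊤ := ENNReal.mul_ne_top kap_ne_top (measure_ne_top _ _)
  have h4 : m + m + m ≤ m + m := key.trans h3
  have h5 : m ≤ 0 := by
    have h6 : (m + m) + m ≤ (m + m) + 0 := by simpa using h4
    exact (ENNReal.add_le_add_iff_left (ENNReal.add_ne_top.mpr ⟨hfin, hfin⟩)).mp h6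
  have h7 : m = 0 := le_antisymm h5 _root_.zero_le
  rw [hm] at h7
  exact (mul_eq_zero.mp h7).resolve_left kap_ne_zero

/-- The main negative result for the explicit measure. -/
theorem muC_no_monge : ¬ AdmitsOptimalMongePlan muC := by
  rintro ⟨T₂, T₃, hM, hcost⟩
  have hle : mongeCost muC T₂ T₃ ≤ kval := by
    rw [hcost]
    calc kantorovichValue muC ≤ ∫⁻ q, coulombCost q.1 q.2.1 q.2.2 ∂piC :=
          iInf₂_le piC piC_coupling
      _ = kval := piC_cost
  have htyped := typed_of_monge hM hle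
  have m2 := hM.meas_two
  -- the two parameter sets
  have hXm := fun (σ : ℝ) (hs : σ = 1 ∨ σ = -1) =>
    measurableSet_image_XX hs measurableSet_Dom subset_rfl
  have hWm := fun (σ : ℝ) (hs : σ = 1 ∨ σ = -1) =>
    measurableSet_image_WW hs measurableSet_Dom subset_rfl
  set A : ℝ → Set (Fin 3 → ℝ) := fun σ =>
    Dom ∩ (fun p => T₂ (W0 p)) ⁻¹' ((XX σ '' Dom ∪ WW σ '' Dom)ᶜ) with hAdef
  have hAm : ∀ σ : ℝ, (σ = 1 ∨ σ = -1) → MeasurableSet (A σ) := by
    intro σ hs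
    apply measurableSet_Dom.inter
    exact (m2.comp measurable_W0) ((hXm σ hs).union (hWm σ hs)).compl
  have hAD : ∀ σ : ℝ, A σ ⊆ Dom := fun σ p hp => hp.1
  have hAprop : ∀ σ : ℝ, ∀ p ∈ A σ, T₂ (W0 p) ∉ XX σ '' Dom ∧ T₂ (W0 p) ∉ WW σ '' Dom := by
    intro σ p hp
    have := hp.2
    simp only [mem_preimage, mem_compl_iff, mem_union, not_or] at this
    exact this
  have h1 := count_zero hM htyped (Or.inl rfl) (hAm 1 (Or.inl rfl)) (hAD 1) (hAprop 1)
  have h2 := count_zero hM htyped (Or.inr rfl) (hAm (-1) (Or.inr rfl)) (hAD (-1)) (hAprop (-1))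
  have hcover : Dom ⊆ A 1 ∪ A (-1) := by
    intro p hp
    by_cases hc : T₂ (W0 p) ∈ XX 1 '' Dom ∪ WW 1 '' Dom
    · right
      refine ⟨hp, ?_⟩
      simp only [mem_preimage, mem_compl_iff, mem_union, not_or]
      constructor
      · rintro ⟨q, hq, hqe⟩
        rcases hc with ⟨r, hr, hre⟩ | ⟨r, hr, hre⟩
        · exact X1_ne_X2 hr hq (hre.trans hqe.symm)
        · exact XX_ne_W (by norm_num) hq (innerPt_WW (by norm_num) hr) (hqe.trans hre.symm)
      · rintro ⟨q, hq, hqe⟩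
        rcases hc with ⟨r, hr, hre⟩ | ⟨r, hr, hre⟩
        · exact XX_ne_W (by norm_num) hr (innerPt_WW (by norm_num) hq) (hre.trans hqe.symm)
        · exact W1_ne_W2 hr hq (hre.trans hqe.symm)
    · left
      exact ⟨hp, hc⟩
  have h3 : volume Dom = 0 := by
    have h4 : nu Dom = 0 := by
      refine le_antisymm ?_ _root_.zero_le
      calc nu Dom ≤ nu (A 1 ∪ A (-1)) := measure_mono hcover
        _ ≤ nu (A 1) + nu (A (-1)) := measure_union_le _ _
        _ = 0 := by rw [h1, h2, add_zero]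
    rwa [Measure.restrict_apply' measurableSet_Dom, inter_self] at h4
  exact volume_Dom_ne_zero h3

/-- Finiteness of the Kantorovich value. -/
theorem muC_value_lt_top : kantorovichValue muC < ⊤ := by
  calc kantorovichValue muC ≤ ∫⁻ q, coulombCost q.1 q.2.1 q.2.2 ∂piC :=
        iInf₂_le piC piC_coupling
    _ = kval := piC_cost
    _ < ⊤ := kval_ne_top.lt_top

end Vale.Agent.Lib.P121
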