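import Vale.Agent.Lib.P121.Defs
import Vale.Agent.Lib.P121.Family

open Real Set

namespace Vale.Agent.Lib.P121

/-- coordinates of `P e_r(ψ, φ) + Q e_θ(ψ, φ)`. -/
noncomputable def cmb (P Q ψ φ : ℝ) : Fin 3 → ℝ :=
  ![(P * sin ψ + Q * cos ψ) * cos φ, (P * sin ψ + Q * cos ψ) * sin φ, P * cos ψ - Q * sin ψ]

/-- the map `(t, ψ, φ) ↦ P(t) e_r(ψ, φ) + Q(t) e_θ(ψ, φ)`. -/
noncomputable def mapE (P Q : ℝ → ℝ) (p : Fin 3 → ℝ) : E3 :=
  WithLp.toLp 2 (cmb (P (p 0)) (Q (p 0)) (p 1) (p 2))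

lemma norm_sq3 (x : E3) : ‖x‖ ^ 2 = x 0 ^ 2 + x 1 ^ 2 + x 2 ^ 2 := by
  rw [EuclideanSpace.real_norm_sq_eq, Fin.sum_univ_three]

lemma mapE_0 (P Q : ℝ → ℝ) (p : Fin 3 → ℝ) :
    mapE P Q p 0 = (P (p 0) * sin (p 1) + Q (p 0) * cos (p 1)) * cos (p 2) := by
  simp [mapE, cmb]

lemma mapE_1 (P Q : ℝ → ℝ) (p : Fin 3 → ℝ) :
    mapE P Q p 1 = (P (p 0) * sin (p 1) + Q (p 0) * cos (p 1)) * sin (p 2) := by
  simp [mapE, cmb]

lemma mapE_2 (P Q : ℝ → ℝ) (p : Fin 3 → ℝ) :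
    mapE P Q p 2 = P (p 0) * cos (p 1) - Q (p 0) * sin (p 1) := by
  simp [mapE, cmb]

lemma norm_sq_mapE (P Q : ℝ → ℝ) (p : Fin 3 → ℝ) :
    ‖mapE P Q p‖ ^ 2 = P (p 0) ^ 2 + Q (p 0) ^ 2 := by
  rw [norm_sq3, mapE_0, mapE_1, mapE_2]
  have h1 := sin_sq_add_cos_sq (p 1)
  have h2 := sin_sq_add_cos_sq (p 2)
  linear_combination (P (p 0) * sin (p 1) + Q (p 0) * cos (p 1)) ^ 2 * h2
    + (P (p 0) ^ 2 + Q (p 0) ^ 2) * h1

lemma norm_sub_sq_mapE (P Q P' Q' : ℝ → ℝ) (p : Fin 3 → ℝ) :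
    ‖mapE P Q p - mapE P' Q' p‖ ^ 2 = (P (p 0) - P' (p 0)) ^ 2 + (Q (p 0) - Q' (p 0)) ^ 2 := by
  rw [norm_sq3]
  simp only [PiLp.sub_apply, mapE_0, mapE_1, mapE_2]
  have h1 := sin_sq_add_cos_sq (p 1)
  have h2 := sin_sq_add_cos_sq (p 2)
  linear_combination
    ((P (p 0) - P' (p 0)) * sin (p 1) + (Q (p 0) - Q' (p 0)) * cos (p 1)) ^ 2 * h2
    + ((P (p 0) - P' (p 0)) ^ 2 + (Q (p 0) - Q' (p 0)) ^ 2) * h1

/-- the parameter domain -/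
def Dom : Set (Fin 3 → ℝ) :=
  {p | Band (p 0) ∧ 3 / 4 < p 1 ∧ p 1 < 19 / 25 ∧ -1 < p 2 ∧ p 2 < 1}

lemma sin_half_le {ψ : ℝ} (h1 : 3 / 4 < ψ) (h2 : ψ < 19 / 25) : 1 / 2 ≤ sin ψ := by
  have h3 := pi_gt_three
  have h4 := pi_le_four
  rw [← sin_pi_div_six]
  apply sin_le_sin_of_le_of_le_pi_div_two <;> linarith

lemma cos_half_le {ψ : ℝ} (h1 : 3 / 4 < ψ) (h2 : ψ < 19 / 25) : 1 / 2 ≤ cos ψ := by
  have h3 := pi_gt_three
  have h4 := pi_le_four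
  rw [← cos_pi_div_three]
  apply cos_le_cos_of_nonneg_of_le_pi <;> linarith

lemma cos_pos_phi {φ : ℝ} (h1 : -1 < φ) (h2 : φ < 1) : 0 < cos φ := by
  have h3 := pi_gt_three
  apply cos_pos_of_mem_Ioo
  constructor <;> linarith

/-- the in-plane radial coordinate -/
noncomputable def xiOf (P Q ψ : ℝ) : ℝ := P * sin ψ + Q * cos ψ

/-- Injectivity of `mapE` on the domain. -/
lemma mapE_injOn (P Q : ℝ → ℝ)
    (hinj : ∀ s t, Band s → Band t → P s ^ 2 + Q s ^ 2 = P t ^ 2 + Q t ^ 2 → s = t)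
    (hpos : ∀ t, Band t → 0 < P t ^ 2 + Q t ^ 2)
    (hxi : ∀ p ∈ Dom, xiOf (P (p 0)) (Q (p 0)) (p 1) ≠ 0) :
    InjOn (mapE P Q) Dom := by
  intro p hp p' hp' heq
  obtain ⟨hb, h1, h2, h3, h4⟩ := id hp
  obtain ⟨hb', h1', h2', h3', h4'⟩ := id hp'
  have hn : P (p 0) ^ 2 + Q (p 0) ^ 2 = P (p' 0) ^ 2 + Q (p' 0) ^ 2 := by
    rw [← norm_sq_mapE, ← norm_sq_mapE, heq]
  have ht : p 0 = p' 0 := hinj _ _ hb hb' hn
  have e0 := congrArg (fun x : E3 => x 0) heq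
  have e1 := congrArg (fun x : E3 => x 1) heq
  have e2 := congrArg (fun x : E3 => x 2) heq
  simp only [mapE_0, mapE_1, mapE_2, ← ht] at e0 e1 e2
  set A := P (p 0)
  set B := Q (p 0)
  have hx := hxi p hp
  have hx' := hxi p' hp'
  rw [← ht] at hx'
  simp only [xiOf] at hx hx'
  change A * sin (p 1) + B * cos (p 1) ≠ 0 at hx
  change A * sin (p' 1) + B * cos (p' 1) ≠ 0 at hx'
  set ξ := A * sin (p 1) + B * cos (p 1) with hξ
  set ξ' := A * sin (p' 1) + B * cos (p' 1) with hξ'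
  have hc := cos_pos_phi h3 h4
  have hc' := cos_pos_phi h3' h4'
  have hsq : ξ ^ 2 = ξ' ^ 2 := by
    have a1 := sin_sq_add_cos_sq (p 2)
    have a2 := sin_sq_add_cos_sq (p' 2)
    have : ξ ^ 2 * (sin (p 2) ^ 2 + cos (p 2) ^ 2)
        = ξ' ^ 2 * (sin (p' 2) ^ 2 + cos (p' 2) ^ 2) := by
      have b1 : (ξ * cos (p 2)) ^ 2 = (ξ' * cos (p' 2)) ^ 2 := by rw [e0]
      have b2 : (ξ * sin (p 2)) ^ 2 = (ξ' * sin (p' 2)) ^ 2 := by rw [e1]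
      nlinarith [b1, b2]
    rw [a1, a2] at this
    linarith
  have hξeq : ξ = ξ' := by
    rcases sq_eq_sq_iff_eq_or_eq_neg.mp hsq with h | h
    · exact h
    · exfalso
      rw [h] at e0
      have hx1 : ξ' * (cos (p 2) + cos (p' 2)) = 0 := by linarith
      have : cos (p 2) + cos (p' 2) ≠ 0 := by positivity
      exact hx' ((mul_eq_zero.mp hx1).resolve_right this)
  have hsin : sin (p 2) = sin (p' 2) := by
    rw [hξeq] at e1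
    exact mul_left_cancel₀ hx' e1
  have hφ : p 2 = p' 2 := by
    have h5 := pi_gt_three
    apply injOn_sin _ _ hsin <;> constructor <;> linarith
  have hnpos := hpos _ hb
  have hs : sin (p 1) = sin (p' 1) := by
    have : (A ^ 2 + B ^ 2) * sin (p 1) = (A ^ 2 + B ^ 2) * sin (p' 1) := by
      have u1 : (A ^ 2 + B ^ 2) * sin (p 1) = A * ξ - B * (A * cos (p 1) - B * sin (p 1)) := by
        rw [hξ]; ring
      have u2 : (A ^ 2 + B ^ 2) * sin (p' 1) = A * ξ' - B * (A * cos (p' 1) - B * sin (p' 1)) := by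
        rw [hξ']; ring
      rw [u1, u2, hξeq, e2]
    exact mul_left_cancel₀ hnpos.ne' this
  have hψ : p 1 = p' 1 := by
    have h5 := pi_gt_three
    apply injOn_sin _ _ hs <;> constructor <;> linarith
  funext i
  fin_cases i
  · exact ht
  · exact hψ
  · exact hφ

/-! ### The five maps -/

/-- far point of a triangle of type `σ` -/
noncomputable def XX (σ : ℝ) : (Fin 3 → ℝ) → E3 := mapE PX (fun t => -σ * QX t)
/-- near point of a triangle of type `σ`, private to that type -/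
noncomputable def WW (σ : ℝ) : (Fin 3 → ℝ) → E3 := mapE PW (fun t => σ * QW t)
/-- near point shared by both types -/
noncomputable def W0 : (Fin 3 → ℝ) → E3 := mapE RR (fun _ => 0)

lemma alg1 (R g h a σ : ℝ) (hR : R ≠ 0) (h2 : R ^ 2 = h ^ 2 + a ^ 2 / 4) (hσ : σ ^ 2 = 1) :
    (-(g * h / R) - R) ^ 2 + (-σ * (g * a / (2 * R)) - 0) ^ 2 = (g + h) ^ 2 + a ^ 2 / 4 := by
  have ha : a ^ 2 = 4 * (R ^ 2 - h ^ 2) := by linarith
  have e1 : (-σ * (g * a / (2 * R)) - 0) ^ 2 = σ ^ 2 * g ^ 2 * a ^ 2 / (4 * R ^ 2) := by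
    field_simp; ring
  rw [e1, hσ, ha]
  field_simp
  ring

lemma alg2 (R g h a σ : ℝ) (hR : R ≠ 0) (h2 : R ^ 2 = h ^ 2 + a ^ 2 / 4) (hσ : σ ^ 2 = 1) :
    (-(g * h / R) - (h ^ 2 - a ^ 2 / 4) / R) ^ 2 + (-σ * (g * a / (2 * R)) - σ * (h * a / R)) ^ 2
      = (g + h) ^ 2 + a ^ 2 / 4 := by
  have ha : a ^ 2 = 4 * (R ^ 2 - h ^ 2) := by linarith
  have e1 : (-σ * (g * a / (2 * R)) - σ * (h * a / R)) ^ 2
      = σ ^ 2 * a ^ 2 * (g + 2 * h) ^ 2 / (4 * R ^ 2) := by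
    field_simp; ring
  have e2 : (h ^ 2 - a ^ 2 / 4) = 2 * h ^ 2 - R ^ 2 := by linarith
  rw [e1, e2, hσ, ha]
  field_simp
  ring

lemma alg3 (R h a σ : ℝ) (hR : R ≠ 0) (h2 : R ^ 2 = h ^ 2 + a ^ 2 / 4) (hσ : σ ^ 2 = 1) :
    (R - (h ^ 2 - a ^ 2 / 4) / R) ^ 2 + (0 - σ * (h * a / R)) ^ 2 = a ^ 2 := by
  have ha : a ^ 2 = 4 * (R ^ 2 - h ^ 2) := by linarith
  have e1 : (0 - σ * (h * a / R)) ^ 2 = σ ^ 2 * h ^ 2 * a ^ 2 / R ^ 2 := by
    field_simp; ring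
  have e2 : (h ^ 2 - a ^ 2 / 4) = 2 * h ^ 2 - R ^ 2 := by linarith
  rw [e1, e2, hσ, ha]
  field_simp
  ring

lemma norm_eq_of_sq {u : E3} {d : ℝ} (hd : 0 ≤ d) (h : ‖u‖ ^ 2 = d ^ 2) : ‖u‖ = d :=
  (sq_eq_sq₀ (norm_nonneg _) hd).mp h

lemma gg_pos {t : ℝ} (h : Band t) : 0 < gg t := by
  have := (gg_bounds h).1; linarith

lemma norm_sq_XX {σ : ℝ} (hσ : σ ^ 2 = 1) {p : Fin 3 → ℝ} (hp : p ∈ Dom) :
    ‖XX σ p‖ ^ 2 = gg (p 0) ^ 2 := by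
  have hb : Band (p 0) := hp.1
  have := PX_QX_sq hb
  unfold XX
  rw [norm_sq_mapE, mul_pow, neg_sq, hσ]
  linarith

lemma norm_XX {σ : ℝ} (hσ : σ ^ 2 = 1) {p : Fin 3 → ℝ} (hp : p ∈ Dom) :
    ‖XX σ p‖ = gg (p 0) :=
  norm_eq_of_sq (gg_pos hp.1).le (norm_sq_XX hσ hp)

lemma norm_sq_WW {σ : ℝ} (hσ : σ ^ 2 = 1) {p : Fin 3 → ℝ} (hp : p ∈ Dom) :
    ‖WW σ p‖ ^ 2 = RR (p 0) ^ 2 := by
  have hb : Band (p 0) := hp.1
  have := PW_QW_sq hb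
  unfold WW
  rw [norm_sq_mapE, mul_pow, hσ]
  linarith

lemma norm_WW {σ : ℝ} (hσ : σ ^ 2 = 1) {p : Fin 3 → ℝ} (hp : p ∈ Dom) :
    ‖WW σ p‖ = RR (p 0) :=
  norm_eq_of_sq (RR_pos hp.1).le (norm_sq_WW hσ hp)

lemma norm_sq_W0 (p : Fin 3 → ℝ) : ‖W0 p‖ ^ 2 = RR (p 0) ^ 2 := by
  unfold W0
  rw [norm_sq_mapE]
  ring

lemma norm_W0 {p : Fin 3 → ℝ} (hp : p ∈ Dom) : ‖W0 p‖ = RR (p 0) :=
  norm_eq_of_sq (RR_pos hp.1).le (norm_sq_W0 p)

lemma dist_W0_WW {σ : ℝ} (hσ : σ ^ 2 = 1) {p : Fin 3 → ℝ} (hp : p ∈ Dom) :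
    ‖W0 p - WW σ p‖ = aa (p 0) := by
  have hb : Band (p 0) := hp.1
  apply norm_eq_of_sq (aa_pos hb.pos).le
  unfold W0 WW
  rw [norm_sub_sq_mapE]
  exact alg3 _ _ _ _ (RR_pos hb).ne' (RR_sq hb) hσ

lemma dist_XX_W0 {σ : ℝ} (hσ : σ ^ 2 = 1) {p : Fin 3 → ℝ} (hp : p ∈ Dom) :
    ‖XX σ p - W0 p‖ = aa (p 0) / p 0 := by
  have hb : Band (p 0) := hp.1
  have hpos := hb.pos
  apply norm_eq_of_sq (div_pos (aa_pos hpos) hpos).le
  unfold W0 XX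
  rw [norm_sub_sq_mapE, div_pow, ← gg_add_hh_sq hb]
  exact alg1 _ _ _ _ _ (RR_pos hb).ne' (RR_sq hb) hσ

lemma dist_XX_WW {σ : ℝ} (hσ : σ ^ 2 = 1) {p : Fin 3 → ℝ} (hp : p ∈ Dom) :
    ‖XX σ p - WW σ p‖ = aa (p 0) / p 0 := by
  have hb : Band (p 0) := hp.1
  have hpos := hb.pos
  apply norm_eq_of_sq (div_pos (aa_pos hpos) hpos).le
  unfold WW XX
  rw [norm_sub_sq_mapE, div_pow, ← gg_add_hh_sq hb]
  exact alg2 _ _ _ _ _ (RR_pos hb).ne' (RR_sq hb) hσ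

/-- coefficients of the combination `t^3 X + W0 + W` vanish -/
lemma coef_P {t : ℝ} (hb : Band t) : t ^ 3 * PX t + RR t + PW t = 0 := by
  have hR := RR_pos hb
  have h2 := RR_sq hb
  have h3 : hh t = t ^ 3 / 2 * gg t := rfl
  unfold PX PW
  field_simp
  rw [h3] at h2 ⊢
  nlinarith [h2]

lemma coef_Q {t : ℝ} (hb : Band t) : t ^ 3 * QX t = QW t := by
  have hR := RR_pos hb
  have h3 : hh t = t ^ 3 / 2 * gg t := rfl
  unfold QX QW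
  rw [h3]
  field_simp

lemma sum_zero {σ : ℝ} {p : Fin 3 → ℝ} (hp : p ∈ Dom) (i : Fin 3) :
    p 0 ^ 3 * XX σ p i + W0 p i + WW σ p i = 0 := by
  have hb : Band (p 0) := hp.1
  have h1 := coef_P hb
  have h2 := coef_Q hb
  unfold XX W0 WW
  fin_cases i
  · simp only [Fin.zero_eta, mapE_0]
    linear_combination (sin (p 1) * cos (p 2)) * h1 - (σ * cos (p 1) * cos (p 2)) * h2
  · simp only [Fin.mk_one, mapE_1]
    linear_combination (sin (p 1) * sin (p 2)) * h1 - (σ * cos (p 1) * sin (p 2)) * h2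
  · have : (⟨2, by norm_num⟩ : Fin 3) = 2 := rfl
    simp only [Fin.reduceFinMk, mapE_2]
    linear_combination (cos (p 1)) * h1 + (σ * sin (p 1)) * h2

/-- orthogonality of `W0 - W` and `X`, in coefficient form -/
lemma coef_orth {σ : ℝ} (hσ : σ ^ 2 = 1) {t : ℝ} (hb : Band t) :
    (RR t - PW t) * PX t + (0 - σ * QW t) * (-σ * QX t) = 0 := by
  have hR := RR_pos hb
  have h2 := RR_sq hb
  have e1 : (0 - σ * QW t) * (-σ * QX t) = σ ^ 2 * (QW t * QX t) := by ring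
  rw [e1, hσ]
  unfold PX PW QW QX
  field_simp
  rw [h2]
  ring

/-! ### Signs of the in-plane radial coordinate -/

lemma xi_W0 {p : Fin 3 → ℝ} (hp : p ∈ Dom) :
    0 < xiOf (RR (p 0)) 0 (p 1) := by
  obtain ⟨hb, h1, h2, -, -⟩ := hp
  have h3 := sin_half_le h1 h2
  have h4 := RR_pos hb
  unfold xiOf
  have : 0 < sin (p 1) := by linarith
  simp only [zero_mul, add_zero]
  positivity

lemma PX_eq {t : ℝ} : PX t = -(gg t / RR t) * hh t := by unfold PX; ring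
lemma QX_eq {t : ℝ} : QX t = (gg t / RR t) * (aa t / 2) := by unfold QX; field_simp
lemma PW_eq {t : ℝ} : PW t = -((aa t ^ 2 / 4 - hh t ^ 2) / RR t) := by unfold PW; ring
lemma QW_eq {t : ℝ} : QW t = (hh t * aa t) / RR t := rfl

lemma xi_X1 {p : Fin 3 → ℝ} (hp : p ∈ Dom) :
    xiOf (PX (p 0)) (-1 * QX (p 0)) (p 1) < 0 := by
  obtain ⟨hb, h1, h2, -, -⟩ := hp
  have h3 := sin_half_le h1 h2
  have h4 := cos_half_le h1 h2
  have h5 := RR_pos hb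
  have h6 := gg_pos hb
  have h7 := (hh_bounds hb).1
  have h8 := aa_one_le hb.pos
  unfold xiOf
  rw [PX_eq, QX_eq]
  have h9 : 0 < gg (p 0) / RR (p 0) := by positivity
  have h10 : 0 < hh (p 0) * sin (p 1) + aa (p 0) / 2 * cos (p 1) := by
    have : 0 < hh (p 0) := by linarith
    have : 0 < sin (p 1) := by linarith
    have : 0 < cos (p 1) := by linarith
    have : 0 < aa (p 0) := by linarith
    positivity
  nlinarith [mul_pos h9 h10]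

lemma xi_X2 {p : Fin 3 → ℝ} (hp : p ∈ Dom) :
    0 < xiOf (PX (p 0)) (-(-1) * QX (p 0)) (p 1) := by
  obtain ⟨hb, h1, h2, -, -⟩ := hp
  have h3 := sin_half_le h1 h2
  have h4 := cos_half_le h1 h2
  have h5 := RR_pos hb
  have h6 := gg_pos hb
  have h7 := (hh_bounds hb).2
  have h7' := (hh_bounds hb).1
  have h8 := aa_one_le hb.pos
  have h11 := sin_le_one (p 1)
  unfold xiOf
  rw [PX_eq, QX_eq]
  have h9 : 0 < gg (p 0) / RR (p 0) := by positivity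
  have h10 : 0 < aa (p 0) / 2 * cos (p 1) - hh (p 0) * sin (p 1) := by nlinarith
  nlinarith [mul_pos h9 h10]

lemma xi_W {σ : ℝ} (hσ : σ ^ 2 = 1) {p : Fin 3 → ℝ} (hp : p ∈ Dom) :
    xiOf (PW (p 0)) (σ * QW (p 0)) (p 1) < 0 := by
  obtain ⟨hb, h1, h2, -, -⟩ := hp
  have h3 := sin_half_le h1 h2
  have h4 := cos_half_le h1 h2
  have h5 := RR_pos hb
  have h7 := (hh_bounds hb).2
  have h7' := (hh_bounds hb).1
  have h8 := aa_one_le hb.pos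
  have h8' := aa_le hb
  have h11 := cos_le_one (p 1)
  have h12 : |σ| = 1 := by
    have : |σ| ^ 2 = 1 := by rw [sq_abs]; exact hσ
    nlinarith [abs_nonneg σ]
  have h13 : σ ≤ 1 := by
    have := le_abs_self σ; linarith
  have h14 : -1 ≤ σ := by
    have := neg_abs_le σ; linarith
  unfold xiOf
  rw [PW_eq, QW_eq]
  have h9 : 0 < (aa (p 0) ^ 2 / 4 - hh (p 0) ^ 2) * sin (p 1)
      - σ * (hh (p 0) * aa (p 0)) * cos (p 1) := by
    have k1 : (1 : ℝ) / 4 - 1 / 1600 ≤ aa (p 0) ^ 2 / 4 - hh (p 0) ^ 2 := by nlinarith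
    have k2 : (1 / 4 - 1 / 1600) * (1 / 2) ≤ (aa (p 0) ^ 2 / 4 - hh (p 0) ^ 2) * sin (p 1) := by
      apply mul_le_mul k1 h3 (by norm_num) (by linarith [k1])
    have k3 : 0 < hh (p 0) * aa (p 0) := by
      apply mul_pos <;> linarith
    have k4 : hh (p 0) * aa (p 0) ≤ (1 / 40) * (101 / 100) := by
      apply mul_le_mul h7 h8' (by linarith) (by norm_num)
    have k5 : σ * (hh (p 0) * aa (p 0)) * cos (p 1) ≤ (1 / 40) * (101 / 100) := by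
      have k6 : σ * (hh (p 0) * aa (p 0)) ≤ (1 / 40) * (101 / 100) := by nlinarith
      have k7 : -((1 / 40) * (101 / 100)) ≤ σ * (hh (p 0) * aa (p 0)) := by nlinarith
      nlinarith
    linarith
  have h10 : -((aa (p 0) ^ 2 / 4 - hh (p 0) ^ 2) / RR (p 0)) * sin (p 1)
      + σ * (hh (p 0) * aa (p 0) / RR (p 0)) * cos (p 1)
      = -(((aa (p 0) ^ 2 / 4 - hh (p 0) ^ 2) * sin (p 1)
      - σ * (hh (p 0) * aa (p 0)) * cos (p 1)) / RR (p 0)) := by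
    field_simp
    ring
  rw [h10]
  have := div_pos h9 h5
  linarith

end Vale.Agent.Lib.P121
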