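import Vale.Agent.Lib.P121.Geometry

open Real Set MeasureTheory

namespace Vale.Agent.Lib.P121

lemma isOpen_Dom : IsOpen Dom := by
  have c0 : Continuous (fun p : Fin 3 → ℝ => p 0) := continuous_apply 0
  have c1 : Continuous (fun p : Fin 3 → ℝ => p 1) := continuous_apply 1
  have c2 : Continuous (fun p : Fin 3 → ℝ => p 2) := continuous_apply 2
  have : Dom = {p | 1 / 6 < p 0} ∩ {p | p 0 < 1 / 5} ∩ {p | 3 / 4 < p 1} ∩ {p | p 1 < 19 / 25}
      ∩ {p | -1 < p 2} ∩ {p | p 2 < 1} := by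
    ext p
    simp only [Dom, Band, mem_ofPred_eq, mem_inter_iff]
    tauto
  rw [this]
  exact (((((isOpen_lt continuous_const c0).inter (isOpen_lt c0 continuous_const)).inter
    (isOpen_lt continuous_const c1)).inter (isOpen_lt c1 continuous_const)).inter
    (isOpen_lt continuous_const c2)).inter (isOpen_lt c2 continuous_const)

lemma measurableSet_Dom : MeasurableSet Dom := isOpen_Dom.measurableSet

/-- Jacobian matrix of `(t, ψ, φ) ↦ P(t) e_r(ψ, φ) + Q(t) e_θ(ψ, φ)`. -/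
noncomputable def jacM (P Q P' Q' : ℝ) (ψ φ : ℝ) : Matrix (Fin 3) (Fin 3) ℝ :=
  !![(P' * sin ψ + Q' * cos ψ) * cos φ, (P * cos ψ - Q * sin ψ) * cos φ,
      -((P * sin ψ + Q * cos ψ) * sin φ);
    (P' * sin ψ + Q' * cos ψ) * sin φ, (P * cos ψ - Q * sin ψ) * sin φ,
      (P * sin ψ + Q * cos ψ) * cos φ;
    P' * cos ψ - Q' * sin ψ, -(P * sin ψ + Q * cos ψ), 0]

lemma det_jacM (P Q P' Q' ψ φ : ℝ) :
    (jacM P Q P' Q' ψ φ).det = (P * sin ψ + Q * cos ψ) * (P * P' + Q * Q') := by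
  have h1 := sin_sq_add_cos_sq ψ
  have h2 := sin_sq_add_cos_sq φ
  simp [jacM, Matrix.det_fin_three]
  linear_combination (P * sin ψ + Q * cos ψ) * ((P' * sin ψ + Q' * cos ψ) * (P * sin ψ + Q * cos ψ)
      + (P * cos ψ - Q * sin ψ) * (P' * cos ψ - Q' * sin ψ)) * h2
    + (P * sin ψ + Q * cos ψ) * (P * P' + Q * Q') * h1

/-- derivative of the coordinate map -/
lemma hasFDerivAt_cmb {P Q : ℝ → ℝ} {p : Fin 3 → ℝ} {P' Q' : ℝ}
    (hP : HasDerivAt P P' (p 0)) (hQ : HasDerivAt Q Q' (p 0)) :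
    HasFDerivAt (fun q : Fin 3 → ℝ => cmb (P (q 0)) (Q (q 0)) (q 1) (q 2))
      (LinearMap.toContinuousLinearMap
        (Matrix.toLin' (jacM (P (p 0)) (Q (p 0)) P' Q' (p 1) (p 2)))) p := by
  have a0 : HasFDerivAt (fun q : Fin 3 → ℝ => q 0) (ContinuousLinearMap.proj 0) p :=
    hasFDerivAt_apply (𝕜 := ℝ) (F' := fun _ : Fin 3 => ℝ) 0 p
  have a1 : HasFDerivAt (fun q : Fin 3 → ℝ => q 1) (ContinuousLinearMap.proj 1) p :=
    hasFDerivAt_apply (𝕜 := ℝ) (F' := fun _ : Fin 3 => ℝ) 1 p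
  have a2 : HasFDerivAt (fun q : Fin 3 → ℝ => q 2) (ContinuousLinearMap.proj 2) p :=
    hasFDerivAt_apply (𝕜 := ℝ) (F' := fun _ : Fin 3 => ℝ) 2 p
  have hP0 := hP.comp_hasFDerivAt p a0
  have hQ0 := hQ.comp_hasFDerivAt p a0
  have s1 := a1.sin
  have c1 := a1.cos
  have s2 := a2.sin
  have c2 := a2.cos
  have hξ := (hP0.mul s1).add (hQ0.mul c1)
  have hζ := (hP0.mul c1).sub (hQ0.mul s1)
  have h0 := hξ.mul c2
  have h1 := hξ.mul s2
  rw [hasFDerivAt_pi']
  intro i
  fin_cases i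
  · refine (h0.congr_fderiv ?_)
    ext v
    simp [jacM, Matrix.toLin'_apply, dotProduct, Fin.sum_univ_three]
    ring
  · refine (h1.congr_fderiv ?_)
    ext v
    simp [jacM, Matrix.toLin'_apply, dotProduct, Fin.sum_univ_three]
    ring
  · refine (hζ.congr_fderiv ?_)
    ext v
    simp [jacM, Matrix.toLin'_apply, dotProduct, Fin.sum_univ_three]
    ring

lemma measurable_cmb {P Q : ℝ → ℝ} (hPm : Measurable P) (hQm : Measurable Q) :
    Measurable (fun q : Fin 3 → ℝ => cmb (P (q 0)) (Q (q 0)) (q 1) (q 2)) := by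
  have h0 : Measurable (fun q : Fin 3 → ℝ => q 0) := measurable_pi_apply 0
  have h1 : Measurable (fun q : Fin 3 → ℝ => q 1) := measurable_pi_apply 1
  have h2 : Measurable (fun q : Fin 3 → ℝ => q 2) := measurable_pi_apply 2
  have hP := hPm.comp h0
  have hQ := hQm.comp h0
  have s1 := Real.measurable_sin.comp h1
  have c1 := Real.measurable_cos.comp h1
  have s2 := Real.measurable_sin.comp h2
  have c2 := Real.measurable_cos.comp h2
  refine measurable_pi_lambda _ (fun i => ?_)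
  fin_cases i
  · exact ((hP.mul s1).add (hQ.mul c1)).mul c2
  · exact ((hP.mul s1).add (hQ.mul c1)).mul s2
  · exact (hP.mul c1).sub (hQ.mul s1)

lemma measurable_mapE {P Q : ℝ → ℝ} (hPm : Measurable P) (hQm : Measurable Q) :
    Measurable (mapE P Q) :=
  (PiLp.volume_preserving_toLp (Fin 3)).measurable.comp (measurable_cmb hPm hQm)

/-- Pushing Lebesgue measure on the domain by a map of our form gives an absolutely continuous
measure. -/
theorem absCont_mapE {P Q : ℝ → ℝ} (hPm : Measurable P) (hQm : Measurable Q)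
    (hP : ∀ t, Band t → DifferentiableAt ℝ P t) (hQ : ∀ t, Band t → DifferentiableAt ℝ Q t)
    (hd : ∀ t, Band t → ∃ d, HasDerivAt (fun s => P s ^ 2 + Q s ^ 2) d t ∧ d ≠ 0)
    (hinj : InjOn (mapE P Q) Dom)
    (hxi : ∀ p ∈ Dom, xiOf (P (p 0)) (Q (p 0)) (p 1) ≠ 0) :
    ((volume : Measure (Fin 3 → ℝ)).restrict Dom).map (mapE P Q) ≪ (volume : Measure E3) := by
  set F : (Fin 3 → ℝ) → (Fin 3 → ℝ) := fun q => cmb (P (q 0)) (Q (q 0)) (q 1) (q 2) with hF
  set f' : (Fin 3 → ℝ) → ((Fin 3 → ℝ) →L[ℝ] (Fin 3 → ℝ)) := fun p =>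
    LinearMap.toContinuousLinearMap
      (Matrix.toLin' (jacM (P (p 0)) (Q (p 0)) (deriv P (p 0)) (deriv Q (p 0)) (p 1) (p 2))) with hf'
  have hFd : ∀ p ∈ Dom, HasFDerivWithinAt F (f' p) Dom p := fun p hp =>
    (hasFDerivAt_cmb (hP _ hp.1).hasDerivAt (hQ _ hp.1).hasDerivAt).hasFDerivWithinAt
  have hinjF : InjOn F Dom := by
    intro p hp p' hp' h
    apply hinj hp hp'
    simp only [mapE]
    exact congrArg (WithLp.toLp 2) h
  have hdet : ∀ p ∈ Dom, (f' p).det ≠ 0 := by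
    intro p hp
    have h1 : (f' p).det = (jacM (P (p 0)) (Q (p 0)) (deriv P (p 0)) (deriv Q (p 0)) (p 1) (p 2)).det := by
      simp only [hf', ContinuousLinearMap.det, LinearMap.coe_toContinuousLinearMap]
      exact LinearMap.det_toLin' _
    rw [h1, det_jacM]
    refine mul_ne_zero (hxi p hp) ?_
    obtain ⟨d, hd1, hd2⟩ := hd _ hp.1
    have h2 := (((hP _ hp.1).hasDerivAt.fun_pow 2).fun_add ((hQ _ hp.1).hasDerivAt.fun_pow 2))
    have h3 := h2.unique hd1
    intro h4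
    apply hd2
    rw [← h3]
    simp only [Nat.cast_ofNat, Nat.add_one_sub_one, pow_one]
    linear_combination 2 * h4
  have hFm : Measurable F := measurable_cmb hPm hQm
  have h1 := map_withDensity_abs_det_fderiv_eq_addHaar (μ := (volume : Measure (Fin 3 → ℝ)))
    measurableSet_Dom.nullMeasurableSet hFd hinjF
  have h2 : (volume : Measure (Fin 3 → ℝ)).restrict Dom ≪
      ((volume : Measure (Fin 3 → ℝ)).restrict Dom).withDensity
        (fun x => ENNReal.ofReal |(f' x).det|) := by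
    apply withDensity_absolutelyContinuous'
    · exact aemeasurable_ofReal_abs_det_fderivWithin _ measurableSet_Dom hFd
    · filter_upwards [ae_restrict_mem measurableSet_Dom] with x hx
      simp only [ne_eq, ENNReal.ofReal_eq_zero, not_le]
      exact abs_pos.mpr (hdet x hx)
  have h3 := h2.map hFm
  rw [h1] at h3
  have h4 : ((volume : Measure (Fin 3 → ℝ)).restrict Dom).map F ≪ (volume : Measure (Fin 3 → ℝ)) :=
    h3.trans (Measure.absolutelyContinuous_of_le Measure.restrict_le_self)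
  have hmp := PiLp.volume_preserving_toLp (Fin 3)
  have h5 : ((volume : Measure (Fin 3 → ℝ)).restrict Dom).map (mapE P Q)
      = (((volume : Measure (Fin 3 → ℝ)).restrict Dom).map F).map (WithLp.toLp 2) := by
    rw [Measure.map_map hmp.measurable hFm]
    rfl
  rw [h5, ← hmp.map_eq]
  exact h4.map hmp.measurable

end Vale.Agent.Lib.P121
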