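import Vale.Agent.Lib.P121.Jacobian

open Real Set MeasureTheory

namespace Vale.Agent.Lib.P121

/-! ### Measurability -/

lemma measurable_aa : Measurable aa := by
  unfold aa
  fun_prop

lemma measurable_gg : Measurable gg := by
  unfold gg
  have := measurable_aa
  fun_prop

lemma measurable_hh : Measurable hh := by
  unfold hh
  have := measurable_gg
  fun_prop

lemma measurable_SS : Measurable SS := by
  unfold SS
  have := measurable_hh
  have := measurable_aa
  fun_prop

lemma measurable_RR : Measurable RR := by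
  unfold RR
  have := measurable_SS
  fun_prop

lemma measurable_PX : Measurable PX := by
  unfold PX
  have := measurable_gg
  have := measurable_hh
  have := measurable_RR
  fun_prop

lemma measurable_QX : Measurable QX := by
  unfold QX
  have := measurable_gg
  have := measurable_aa
  have := measurable_RR
  fun_prop

lemma measurable_PW : Measurable PW := by
  unfold PW
  have := measurable_aa
  have := measurable_hh
  have := measurable_RR
  fun_prop

lemma measurable_QW : Measurable QW := by
  unfold QW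
  have := measurable_aa
  have := measurable_hh
  have := measurable_RR
  fun_prop

lemma measurable_XX (σ : ℝ) : Measurable (XX σ) := by
  refine measurable_mapE measurable_PX ?_
  have := measurable_QX
  fun_prop

lemma measurable_WW (σ : ℝ) : Measurable (WW σ) := by
  refine measurable_mapE measurable_PW ?_
  have := measurable_QW
  fun_prop

lemma measurable_W0 : Measurable W0 :=
  measurable_mapE measurable_RR measurable_const

/-! ### Differentiability -/

lemma differentiableAt_gg {t : ℝ} (h : Band t) : DifferentiableAt ℝ gg t := by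
  have ht := h.pos
  obtain ⟨h1, -⟩ := E2_bounds h
  have h0 := aa_differentiableAt ht
  have h2 := aa_pos ht
  unfold gg
  apply DifferentiableAt.fun_div
  · apply DifferentiableAt.sqrt
    · apply DifferentiableAt.sub_const
      apply DifferentiableAt.fun_div
      · fun_prop
      · fun_prop
      · positivity
    · have : (0 : ℝ) < 99 / 4 := by norm_num
      linarith
  · exact h0.fun_pow 2
  · positivity

lemma differentiableAt_hh {t : ℝ} (h : Band t) : DifferentiableAt ℝ hh t := by
  unfold hh
  have := differentiableAt_gg h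
  fun_prop

lemma differentiableAt_SS {t : ℝ} (h : Band t) : DifferentiableAt ℝ SS t :=
  (SS_hasDerivAt h).differentiableAt

lemma differentiableAt_RR {t : ℝ} (h : Band t) : DifferentiableAt ℝ RR t := by
  unfold RR
  apply DifferentiableAt.sqrt (differentiableAt_SS h)
  have := (SS_bounds h).1
  linarith

lemma differentiableAt_PX {t : ℝ} (h : Band t) : DifferentiableAt ℝ PX t := by
  unfold PX
  have h1 := differentiableAt_gg h
  have h2 := differentiableAt_hh h
  have h3 := differentiableAt_RR h
  have h4 := RR_pos h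
  apply DifferentiableAt.fun_neg
  apply DifferentiableAt.fun_div (h1.fun_mul h2) h3 h4.ne'

lemma differentiableAt_QX {t : ℝ} (h : Band t) : DifferentiableAt ℝ QX t := by
  unfold QX
  have h1 := differentiableAt_gg h
  have h2 := aa_differentiableAt h.pos
  have h3 := differentiableAt_RR h
  have h4 := RR_pos h
  apply DifferentiableAt.fun_div (h1.fun_mul h2) (h3.const_mul 2) (by positivity)

lemma differentiableAt_PW {t : ℝ} (h : Band t) : DifferentiableAt ℝ PW t := by
  unfold PW
  have h1 := aa_differentiableAt h.pos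
  have h2 := differentiableAt_hh h
  have h3 := differentiableAt_RR h
  have h4 := RR_pos h
  apply DifferentiableAt.fun_div _ h3 h4.ne'
  exact (h2.fun_pow 2).fun_sub ((h1.fun_pow 2).div_const 4)

lemma differentiableAt_QW {t : ℝ} (h : Band t) : DifferentiableAt ℝ QW t := by
  unfold QW
  have h1 := aa_differentiableAt h.pos
  have h2 := differentiableAt_hh h
  have h3 := differentiableAt_RR h
  have h4 := RR_pos h
  exact DifferentiableAt.fun_div (h2.fun_mul h1) h3 h4.ne'

/-! ### Monotonicity -/

lemma band_iff {t : ℝ} : Band t ↔ t ∈ Ioo (1 / 6 : ℝ) (1 / 5) := Iff.rfl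

lemma strictAntiOn_GG : StrictAntiOn GG (Ioo (1 / 6 : ℝ) (1 / 5)) := by
  apply strictAntiOn_of_deriv_neg (convex_Ioo _ _)
  · intro t ht
    have hb : Band t := ht
    exact (GG_hasDerivAt hb.pos).continuousAt.continuousWithinAt
  · intro t ht
    rw [interior_Ioo] at ht
    have hb : Band t := ht
    rw [(GG_hasDerivAt hb.pos).deriv]
    exact dGG_neg hb

lemma strictMonoOn_SS : StrictMonoOn SS (Ioo (1 / 6 : ℝ) (1 / 5)) := by
  apply strictMonoOn_of_deriv_pos (convex_Ioo _ _)
  · intro t ht
    have hb : Band t := ht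
    exact (SS_hasDerivAt hb).continuousAt.continuousWithinAt
  · intro t ht
    rw [interior_Ioo] at ht
    have hb : Band t := ht
    rw [(SS_hasDerivAt hb).deriv]
    exact dSS_pos hb

lemma gg_strictAnti {s t : ℝ} (hs : Band s) (ht : Band t) (h : s < t) : gg t < gg s := by
  have h1 := strictAntiOn_GG hs ht h
  rw [← gg_sq_eq_GG hs, ← gg_sq_eq_GG ht] at h1
  exact lt_of_pow_lt_pow_left₀ 2 (gg_pos hs).le h1

lemma gg_inj {s t : ℝ} (hs : Band s) (ht : Band t) (h : gg s ^ 2 = gg t ^ 2) : s = t := by
  rw [gg_sq_eq_GG hs, gg_sq_eq_GG ht] at h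
  exact strictAntiOn_GG.injOn hs ht h

lemma RR_sq_eq_SS {t : ℝ} (h : Band t) : RR t ^ 2 = SS t := RR_sq h

lemma RR_inj {s t : ℝ} (hs : Band s) (ht : Band t) (h : RR s ^ 2 = RR t ^ 2) : s = t := by
  rw [RR_sq_eq_SS hs, RR_sq_eq_SS ht] at h
  exact strictMonoOn_SS.injOn hs ht h

/-! ### The five maps are injective -/

lemma PX_QX_sq' {σ : ℝ} (hσ : σ ^ 2 = 1) {t : ℝ} (h : Band t) :
    PX t ^ 2 + (-σ * QX t) ^ 2 = gg t ^ 2 := by
  rw [mul_pow, neg_sq, hσ, one_mul]
  exact PX_QX_sq h

lemma PW_QW_sq' {σ : ℝ} (hσ : σ ^ 2 = 1) {t : ℝ} (h : Band t) :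
    PW t ^ 2 + (σ * QW t) ^ 2 = RR t ^ 2 := by
  rw [mul_pow, hσ, one_mul]
  exact PW_QW_sq h

/-- the sign parameter takes the values one and minus one -/
lemma sigma_sq {σ : ℝ} (h : σ = 1 ∨ σ = -1) : σ ^ 2 = 1 := by
  rcases h with rfl | rfl <;> norm_num

lemma xi_XX_ne {σ : ℝ} (h : σ = 1 ∨ σ = -1) {p : Fin 3 → ℝ} (hp : p ∈ Dom) :
    xiOf (PX (p 0)) (-σ * QX (p 0)) (p 1) ≠ 0 := by
  rcases h with rfl | rfl
  · exact (xi_X1 hp).ne
  · exact (xi_X2 hp).ne'

lemma injOn_XX {σ : ℝ} (h : σ = 1 ∨ σ = -1) : InjOn (XX σ) Dom := by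
  have hσ := sigma_sq h
  apply mapE_injOn
  · intro s t hs ht hst
    rw [PX_QX_sq' hσ hs, PX_QX_sq' hσ ht] at hst
    exact gg_inj hs ht hst
  · intro t ht
    rw [PX_QX_sq' hσ ht]
    have := gg_pos ht
    positivity
  · intro p hp
    exact xi_XX_ne h hp

lemma injOn_WW {σ : ℝ} (h : σ = 1 ∨ σ = -1) : InjOn (WW σ) Dom := by
  have hσ := sigma_sq h
  apply mapE_injOn
  · intro s t hs ht hst
    rw [PW_QW_sq' hσ hs, PW_QW_sq' hσ ht] at hst
    exact RR_inj hs ht hst
  · intro t ht
    rw [PW_QW_sq' hσ ht]
    have := RR_pos ht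
    positivity
  · intro p hp
    exact (xi_W hσ hp).ne

lemma injOn_W0 : InjOn W0 Dom := by
  apply mapE_injOn
  · intro s t hs ht hst
    have h0 : (0 : ℝ) ^ 2 = 0 := by norm_num
    simp only [h0, add_zero] at hst
    exact RR_inj hs ht hst
  · intro t ht
    have := RR_pos ht
    positivity
  · intro p hp
    exact (xi_W0 hp).ne'

/-! ### The five maps push Lebesgue to an absolutely continuous measure -/

lemma absCont_XX {σ : ℝ} (h : σ = 1 ∨ σ = -1) :
    ((volume : Measure (Fin 3 → ℝ)).restrict Dom).map (XX σ) ≪ (volume : Measure E3) := by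
  have hσ := sigma_sq h
  apply absCont_mapE measurable_PX
  · have := measurable_QX
    fun_prop
  · intro t ht; exact differentiableAt_PX ht
  · intro t ht; exact (differentiableAt_QX ht).const_mul _
  · intro t ht
    refine ⟨dGG t, ?_, (dGG_neg ht).ne⟩
    refine (GG_hasDerivAt ht.pos).congr_of_eventuallyEq ?_
    filter_upwards [eventually_band ht] with s hs
    rw [PX_QX_sq' hσ hs, gg_sq_eq_GG hs]
  · exact injOn_XX h
  · intro p hp; exact xi_XX_ne h hp

lemma absCont_WW {σ : ℝ} (h : σ = 1 ∨ σ = -1) :
    ((volume : Measure (Fin 3 → ℝ)).restrict Dom).map (WW σ) ≪ (volume : Measure E3) := by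
  have hσ := sigma_sq h
  apply absCont_mapE measurable_PW
  · have := measurable_QW
    fun_prop
  · intro t ht; exact differentiableAt_PW ht
  · intro t ht; exact (differentiableAt_QW ht).const_mul _
  · intro t ht
    refine ⟨dSS t, ?_, (dSS_pos ht).ne'⟩
    refine (SS_hasDerivAt ht).congr_of_eventuallyEq ?_
    filter_upwards [eventually_band ht] with s hs
    rw [PW_QW_sq' hσ hs, RR_sq_eq_SS hs]
  · exact injOn_WW h
  · intro p hp; exact (xi_W hσ hp).ne

lemma absCont_W0 :
    ((volume : Measure (Fin 3 → ℝ)).restrict Dom).map W0 ≪ (volume : Measure E3) := by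
  apply absCont_mapE measurable_RR measurable_const
  · intro t ht; exact differentiableAt_RR ht
  · intro t ht; exact differentiableAt_const _
  · intro t ht
    refine ⟨dSS t, ?_, (dSS_pos ht).ne'⟩
    refine (SS_hasDerivAt ht).congr_of_eventuallyEq ?_
    filter_upwards [eventually_band ht] with s hs
    rw [← RR_sq_eq_SS hs]
    ring
  · exact injOn_W0
  · intro p hp; exact (xi_W0 hp).ne'

end Vale.Agent.Lib.P121
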