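import Vale.Agent.Lib.P121.Assembly

open Real Set MeasureTheory
open scoped ENNReal

namespace Vale.Agent.Lib.P121

lemma measurable_coulombCost :
    Measurable (fun q : E3 × E3 × E3 => coulombCost q.1 q.2.1 q.2.2) := by
  unfold coulombCost
  fun_prop

lemma coulombCost_rot (u v w : E3) : coulombCost v w u = coulombCost u v w := by
  unfold coulombCost
  rw [enorm_sub_rev v u, enorm_sub_rev w u]
  ring

/-- triple of maps -/
def G3 (a b c : (Fin 3 → ℝ) → E3) : (Fin 3 → ℝ) → E3 × E3 × E3 := fun p => (a p, b p, c p)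

lemma measurable_G3 {a b c : (Fin 3 → ℝ) → E3} (ha : Measurable a) (hb : Measurable b)
    (hc : Measurable c) : Measurable (G3 a b c) :=
  ha.prodMk (hb.prodMk hc)

lemma map_G3_one {a b c : (Fin 3 → ℝ) → E3} (ha : Measurable a) (hb : Measurable b)
    (hc : Measurable c) : (nu.map (G3 a b c)).map (fun q => q.1) = nu.map a := by
  rw [Measure.map_map (by fun_prop) (measurable_G3 ha hb hc)]
  rfl

lemma map_G3_two {a b c : (Fin 3 → ℝ) → E3} (ha : Measurable a) (hb : Measurable b)
    (hc : Measurable c) : (nu.map (G3 a b c)).map (fun q => q.2.1) = nu.map b := by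
  rw [Measure.map_map (by fun_prop) (measurable_G3 ha hb hc)]
  rfl

lemma map_G3_three {a b c : (Fin 3 → ℝ) → E3} (ha : Measurable a) (hb : Measurable b)
    (hc : Measurable c) : (nu.map (G3 a b c)).map (fun q => q.2.2) = nu.map c := by
  rw [Measure.map_map (by fun_prop) (measurable_G3 ha hb hc)]
  rfl

/-- The reference plan. -/
noncomputable def piC : Measure (E3 × E3 × E3) :=
  kap • (nu.map (G3 (XX 1) W0 (WW 1)) + nu.map (G3 W0 (WW 1) (XX 1))
    + nu.map (G3 (WW 1) (XX 1) W0) + nu.map (G3 (XX (-1)) W0 (WW (-1)))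
    + nu.map (G3 W0 (WW (-1)) (XX (-1))) + nu.map (G3 (WW (-1)) (XX (-1)) W0))

lemma piC_coupling : IsThreeCoupling muC piC := by
  have m1 := measurable_XX 1
  have m2 := measurable_XX (-1)
  have m3 := measurable_WW 1
  have m4 := measurable_WW (-1)
  have m5 := measurable_W0
  refine ⟨⟨?_⟩, ?_, ?_, ?_⟩
  · unfold piC
    rw [Measure.smul_apply, smul_eq_mul]
    simp only [Measure.add_apply]
    rw [Measure.map_apply (measurable_G3 m1 m5 m3) MeasurableSet.univ,
      Measure.map_apply (measurable_G3 m5 m3 m1) MeasurableSet.univ,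
      Measure.map_apply (measurable_G3 m3 m1 m5) MeasurableSet.univ,
      Measure.map_apply (measurable_G3 m2 m5 m4) MeasurableSet.univ,
      Measure.map_apply (measurable_G3 m5 m4 m2) MeasurableSet.univ,
      Measure.map_apply (measurable_G3 m4 m2 m5) MeasurableSet.univ]
    simp only [preimage_univ]
    rw [← kap_mul]
    congr 1
    ring
  · unfold piC muC
    have h : Measurable (fun q : E3 × E3 × E3 => q.1) := by fun_prop
    rw [Measure.map_smul]
    simp only [Measure.map_add _ _ h]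
    rw [map_G3_one m1 m5 m3, map_G3_one m5 m3 m1, map_G3_one m3 m1 m5, map_G3_one m2 m5 m4,
      map_G3_one m5 m4 m2, map_G3_one m4 m2 m5]
    congr 1
    abel
  · unfold piC muC
    have h : Measurable (fun q : E3 × E3 × E3 => q.2.1) := by fun_prop
    rw [Measure.map_smul]
    simp only [Measure.map_add _ _ h]
    rw [map_G3_two m1 m5 m3, map_G3_two m5 m3 m1, map_G3_two m3 m1 m5, map_G3_two m2 m5 m4,
      map_G3_two m5 m4 m2, map_G3_two m4 m2 m5]
    congr 1
    abel
  · unfold piC muC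
    have h : Measurable (fun q : E3 × E3 × E3 => q.2.2) := by fun_prop
    rw [Measure.map_smul]
    simp only [Measure.map_add _ _ h]
    rw [map_G3_three m1 m5 m3, map_G3_three m5 m3 m1, map_G3_three m3 m1 m5, map_G3_three m2 m5 m4,
      map_G3_three m5 m4 m2, map_G3_three m4 m2 m5]
    congr 1
    abel

/-- Cost of a triangle of type `σ`. -/
noncomputable def cSig (σ : ℝ) (p : Fin 3 → ℝ) : ℝ≥0∞ := coulombCost (XX σ p) (W0 p) (WW σ p)

lemma measurable_cSig (σ : ℝ) : Measurable (cSig σ) := by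
  have e : cSig σ = (fun q : E3 × E3 × E3 => coulombCost q.1 q.2.1 q.2.2) ∘
      G3 (XX σ) W0 (WW σ) := by
    funext p
    rfl
  rw [e]
  exact measurable_coulombCost.comp (measurable_G3 (measurable_XX σ) measurable_W0 (measurable_WW σ))

lemma lintegral_G3 (a b c : (Fin 3 → ℝ) → E3) (ha : Measurable a) (hb : Measurable b)
    (hc : Measurable c) :
    ∫⁻ q, coulombCost q.1 q.2.1 q.2.2 ∂(nu.map (G3 a b c))
      = ∫⁻ p, coulombCost (a p) (b p) (c p) ∂nu :=
  lintegral_map measurable_coulombCost (measurable_G3 ha hb hc)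

lemma piC_cost : ∫⁻ q, coulombCost q.1 q.2.1 q.2.2 ∂piC
    = kap * (3 * ∫⁻ p, cSig 1 p ∂nu + 3 * ∫⁻ p, cSig (-1) p ∂nu) := by
  have m1 := measurable_XX 1
  have m2 := measurable_XX (-1)
  have m3 := measurable_WW 1
  have m4 := measurable_WW (-1)
  have m5 := measurable_W0
  unfold piC
  rw [lintegral_smul_measure, smul_eq_mul]
  congr 1
  simp only [lintegral_add_measure]
  rw [lintegral_G3 _ _ _ m1 m5 m3, lintegral_G3 _ _ _ m5 m3 m1, lintegral_G3 _ _ _ m3 m1 m5,
    lintegral_G3 _ _ _ m2 m5 m4, lintegral_G3 _ _ _ m5 m4 m2, lintegral_G3 _ _ _ m4 m2 m5]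
  have e1 : ∀ p, coulombCost (W0 p) (WW 1 p) (XX 1 p) = cSig 1 p := fun p => coulombCost_rot _ _ _
  have e2 : ∀ p, coulombCost (WW 1 p) (XX 1 p) (W0 p) = cSig 1 p := fun p => by
    rw [coulombCost_rot (W0 p) (WW 1 p) (XX 1 p), coulombCost_rot]; rfl
  have e3 : ∀ p, coulombCost (W0 p) (WW (-1) p) (XX (-1) p) = cSig (-1) p :=
    fun p => coulombCost_rot _ _ _
  have e4 : ∀ p, coulombCost (WW (-1) p) (XX (-1) p) (W0 p) = cSig (-1) p := fun p => by
    rw [coulombCost_rot (W0 p) (WW (-1) p) (XX (-1) p), coulombCost_rot]; rfl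
  have e5 : ∀ p, coulombCost (XX 1 p) (W0 p) (WW 1 p) = cSig 1 p := fun p => rfl
  have e6 : ∀ p, coulombCost (XX (-1) p) (W0 p) (WW (-1) p) = cSig (-1) p := fun p => rfl
  simp only [e1, e2, e3, e4, e5, e6]
  ring

end Vale.Agent.Lib.P121
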