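import Vale.Agent.Lib.P121.Maps

open Real Set MeasureTheory
open scoped ENNReal

namespace Vale.Agent.Lib.P121

/-! ### The tangent-line inequality -/

lemma tangent_gap {d D : ℝ} (hd : 0 < d) (hD : 0 < D) :
    d⁻¹ - (3 / (2 * D) - d ^ 2 / (2 * D ^ 3)) = (d - D) ^ 2 * (d + 2 * D) / (2 * d * D ^ 3) := by
  field_simp
  ring

lemma tangent_gap_nonneg {d D : ℝ} (hd : 0 < d) (hD : 0 < D) :
    0 ≤ d⁻¹ - (3 / (2 * D) - d ^ 2 / (2 * D ^ 3)) := by
  rw [tangent_gap hd hD]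
  positivity

lemma tangent_gap_eq {d D : ℝ} (hd : 0 < d) (hD : 0 < D)
    (h : d⁻¹ - (3 / (2 * D) - d ^ 2 / (2 * D ^ 3)) = 0) : d = D := by
  rw [tangent_gap hd hD] at h
  have h1 : (d + 2 * D) / (2 * d * D ^ 3) ≠ 0 := by positivity
  have h2 : (d - D) ^ 2 * ((d + 2 * D) / (2 * d * D ^ 3)) = 0 := by
    rw [← h]; ring
  have h3 := (mul_eq_zero.mp h2).resolve_right h1
  have h4 : d - D = 0 := by simpa using h3
  linarith

/-- the constant `A(t)` -/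
noncomputable def Aa (t : ℝ) : ℝ := 3 / 2 * (1 + 2 * t) / aa t

/-- Exact decomposition of the gap in the basic inequality. -/
lemma star_identity {t : ℝ} (ht : 0 < t) (x y z : E3) :
    ‖y - z‖ ^ 2 / (2 * aa t ^ 3) + ‖x - y‖ ^ 2 / (2 * (aa t / t) ^ 3)
        + ‖x - z‖ ^ 2 / (2 * (aa t / t) ^ 3) + ‖t ^ 3 • x + y + z‖ ^ 2 / (2 + t ^ 3)
      = t ^ 3 * ‖x‖ ^ 2 + ‖y‖ ^ 2 + ‖z‖ ^ 2 := by
  have ha := aa_pos ht
  have hc := aa_cube ht
  have h1 : (2 * (aa t / t) ^ 3) = (2 + t ^ 3) / t ^ 3 := by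
    rw [div_pow, hc]
    field_simp
  have h2 : 2 * aa t ^ 3 = 2 + t ^ 3 := by rw [hc]; ring
  rw [h1, h2]
  have h3 : 0 < 2 + t ^ 3 := by positivity
  simp only [norm_sq3, PiLp.sub_apply, PiLp.add_apply, PiLp.smul_apply, smul_eq_mul]
  field_simp
  ring

/-- The basic inequality, with all three gaps made explicit. -/
lemma star_gap {t : ℝ} (ht : 0 < t) {x y z : E3} :
    (‖x - y‖⁻¹ + ‖x - z‖⁻¹ + ‖y - z‖⁻¹) - (Aa t - t ^ 3 * ‖x‖ ^ 2 - ‖y‖ ^ 2 - ‖z‖ ^ 2)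
      = (‖x - y‖⁻¹ - (3 / (2 * (aa t / t)) - ‖x - y‖ ^ 2 / (2 * (aa t / t) ^ 3)))
      + (‖x - z‖⁻¹ - (3 / (2 * (aa t / t)) - ‖x - z‖ ^ 2 / (2 * (aa t / t) ^ 3)))
      + (‖y - z‖⁻¹ - (3 / (2 * aa t) - ‖y - z‖ ^ 2 / (2 * aa t ^ 3)))
      + ‖t ^ 3 • x + y + z‖ ^ 2 / (2 + t ^ 3) := by
  have ha := aa_pos ht
  have h := star_identity ht x y z
  have h2 : Aa t = 3 / (2 * (aa t / t)) + 3 / (2 * (aa t / t)) + 3 / (2 * aa t) := by
    unfold Aa
    field_simp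
    ring
  rw [h2]
  linear_combination (-1 : ℝ) * h

lemma norm_sub_pos {x y : E3} (h : x ≠ y) : 0 < ‖x - y‖ :=
  norm_pos_iff.mpr (sub_ne_zero.mpr h)

lemma star_ineq {t : ℝ} (ht : 0 < t) {x y z : E3} (h1 : x ≠ y) (h2 : x ≠ z) (h3 : y ≠ z) :
    Aa t - t ^ 3 * ‖x‖ ^ 2 - ‖y‖ ^ 2 - ‖z‖ ^ 2 ≤ ‖x - y‖⁻¹ + ‖x - z‖⁻¹ + ‖y - z‖⁻¹ := by
  have ha := aa_pos ht
  have hD : 0 < aa t / t := div_pos ha ht
  have g1 := tangent_gap_nonneg (norm_sub_pos h1) hD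
  have g2 := tangent_gap_nonneg (norm_sub_pos h2) hD
  have g3 := tangent_gap_nonneg (norm_sub_pos h3) ha
  have g4 : 0 ≤ ‖t ^ 3 • x + y + z‖ ^ 2 / (2 + t ^ 3) := by positivity
  have := star_gap ht (x := x) (y := y) (z := z)
  linarith

/-- The equality case of the basic inequality. -/
lemma star_eq {t : ℝ} (ht : 0 < t) {x y z : E3} (h1 : x ≠ y) (h2 : x ≠ z) (h3 : y ≠ z)
    (heq : Aa t - t ^ 3 * ‖x‖ ^ 2 - ‖y‖ ^ 2 - ‖z‖ ^ 2 = ‖x - y‖⁻¹ + ‖x - z‖⁻¹ + ‖y - z‖⁻¹) :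
    ‖x - y‖ = aa t / t ∧ ‖x - z‖ = aa t / t ∧ ‖y - z‖ = aa t ∧ ‖t ^ 3 • x + y + z‖ = 0 := by
  have ha := aa_pos ht
  have hD : 0 < aa t / t := div_pos ha ht
  have g1 := tangent_gap_nonneg (norm_sub_pos h1) hD
  have g2 := tangent_gap_nonneg (norm_sub_pos h2) hD
  have g3 := tangent_gap_nonneg (norm_sub_pos h3) ha
  have g4 : 0 ≤ ‖t ^ 3 • x + y + z‖ ^ 2 / (2 + t ^ 3) := by positivity
  have g := star_gap ht (x := x) (y := y) (z := z)
  rw [heq, sub_self] at g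
  refine ⟨tangent_gap_eq (norm_sub_pos h1) hD (by linarith),
    tangent_gap_eq (norm_sub_pos h2) hD (by linarith),
    tangent_gap_eq (norm_sub_pos h3) ha (by linarith), ?_⟩
  have g5 : ‖t ^ 3 • x + y + z‖ ^ 2 / (2 + t ^ 3) = 0 := by linarith
  have g6 : (2 + t ^ 3) ≠ 0 := by positivity
  have g7 := (div_eq_zero_iff.mp g5).resolve_right g6
  simpa using g7

/-- The inequality used for three near points: the equilateral tangent. -/
lemma equilateral_ineq {x y z : E3} (h1 : x ≠ y) (h2 : x ≠ z) (h3 : y ≠ z) :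
    9 / 2 - 3 / 2 * (‖x‖ ^ 2 + ‖y‖ ^ 2 + ‖z‖ ^ 2) ≤ ‖x - y‖⁻¹ + ‖x - z‖⁻¹ + ‖y - z‖⁻¹ := by
  have g1 := tangent_gap_nonneg (norm_sub_pos h1) (one_pos)
  have g2 := tangent_gap_nonneg (norm_sub_pos h2) (one_pos)
  have g3 := tangent_gap_nonneg (norm_sub_pos h3) (one_pos)
  have key : ‖x - y‖ ^ 2 + ‖x - z‖ ^ 2 + ‖y - z‖ ^ 2 + ‖x + y + z‖ ^ 2
      = 3 * (‖x‖ ^ 2 + ‖y‖ ^ 2 + ‖z‖ ^ 2) := by
    simp only [norm_sq3, PiLp.sub_apply, PiLp.add_apply]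
    ring
  have g4 : 0 ≤ ‖x + y + z‖ ^ 2 := by positivity
  norm_num at g1 g2 g3
  linarith

/-! ### The inverse of the far radius -/

/-- the inverse function of `gg` on the band -/
noncomputable def that (r : ℝ) : ℝ := sSup {t | Band t ∧ r ≤ gg t}

lemma that_gg {t : ℝ} (h : Band t) : that (gg t) = t := by
  unfold that
  apply IsGreatest.csSup_eq
  refine ⟨⟨h, le_rfl⟩, ?_⟩
  rintro s ⟨hs, hst⟩
  by_contra hc
  push Not at hc
  exact absurd (gg_strictAnti h hs hc) (not_lt.mpr hst)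

lemma that_nonneg (r : ℝ) : 0 ≤ that r := by
  apply Real.sSup_nonneg
  rintro t ⟨ht, -⟩
  exact ht.pos.le

lemma that_antitone : Antitone that := by
  intro r r' hr
  unfold that
  by_cases hne : ({t | Band t ∧ r' ≤ gg t} : Set ℝ).Nonempty
  · apply csSup_le_csSup
    · refine ⟨1 / 5, ?_⟩
      rintro t ⟨ht, -⟩
      exact ht.2.le
    · exact hne
    · rintro t ⟨ht, h⟩
      exact ⟨ht, hr.trans h⟩
  · rw [not_nonempty_iff_eq_empty.mp hne, Real.sSup_empty]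
    exact that_nonneg r

lemma measurable_that : Measurable that := that_antitone.measurable

lemma measurable_Aa : Measurable Aa := by
  unfold Aa
  have := measurable_aa
  fun_prop

/-! ### The two levels of potentials -/

/-- first level potential (real valued, unshifted) -/
noncomputable def Ur (x : E3) : ℝ :=
  if 2 ≤ ‖x‖ then Aa (that ‖x‖) - that ‖x‖ ^ 3 * ‖x‖ ^ 2 - 8 / 3 else 4 / 3 - ‖x‖ ^ 2

/-- second level potential (real valued, unshifted) -/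
noncomputable def Fr (x : E3) : ℝ :=
  if 2 ≤ ‖x‖ then
    that ‖x‖ ^ 6 / 2 * x 2 ^ 2 + aa (that ‖x‖) ^ 2 / 2 * (1 - x 2 ^ 2 / ‖x‖ ^ 2)
  else -x 2 ^ 2

lemma measurable_coord (i : Fin 3) : Measurable (fun x : E3 => x i) :=
  (EuclideanSpace.proj i : E3 →L[ℝ] ℝ).continuous.measurable

lemma measurable_Ur : Measurable Ur := by
  unfold Ur
  have h1 : Measurable (fun x : E3 => ‖x‖) := measurable_norm
  have h2 : Measurable (fun x : E3 => that ‖x‖) := measurable_that.comp h1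
  have h3 : Measurable (fun x : E3 => Aa (that ‖x‖)) := measurable_Aa.comp h2
  refine Measurable.ite (measurableSet_le measurable_const h1) ?_ ?_ <;> fun_prop

lemma measurable_Fr : Measurable Fr := by
  unfold Fr
  have h1 : Measurable (fun x : E3 => ‖x‖) := measurable_norm
  have h2 : Measurable (fun x : E3 => that ‖x‖) := measurable_that.comp h1
  have h3 : Measurable (fun x : E3 => aa (that ‖x‖)) := measurable_aa.comp h2
  have h4 := measurable_coord 2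
  refine Measurable.ite (measurableSet_le measurable_const h1) ?_ ?_
  · fun_prop
  · fun_prop

lemma two_le_gg {t : ℝ} (h : Band t) : 2 ≤ gg t := by
  have := (gg_bounds h).1; linarith

lemma Ur_XX {σ : ℝ} (hσ : σ ^ 2 = 1) {p : Fin 3 → ℝ} (hp : p ∈ Dom) :
    Ur (XX σ p) = Aa (p 0) - p 0 ^ 3 * gg (p 0) ^ 2 - 8 / 3 := by
  have hb : Band (p 0) := hp.1
  unfold Ur
  rw [norm_XX hσ hp, if_pos (two_le_gg hb), that_gg hb]

lemma Fr_XX {σ : ℝ} (hσ : σ ^ 2 = 1) {p : Fin 3 → ℝ} (hp : p ∈ Dom) :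
    Fr (XX σ p) = p 0 ^ 6 / 2 * (XX σ p) 2 ^ 2
      + aa (p 0) ^ 2 / 2 * (1 - (XX σ p) 2 ^ 2 / gg (p 0) ^ 2) := by
  have hb : Band (p 0) := hp.1
  unfold Fr
  rw [norm_XX hσ hp, if_pos (two_le_gg hb), that_gg hb]

lemma Ur_inner {x : E3} (hx : ‖x‖ < 2) : Ur x = 4 / 3 - ‖x‖ ^ 2 := by
  unfold Ur
  rw [if_neg (not_le.mpr hx)]

lemma Fr_inner {x : E3} (hx : ‖x‖ < 2) : Fr x = - x 2 ^ 2 := by
  unfold Fr
  rw [if_neg (not_le.mpr hx)]

/-! ### Arithmetic bounds on the potentials -/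

lemma Aa_le {t : ℝ} (h : Band t) : Aa t ≤ 21 / 10 := by
  have h1 := aa_one_le h.pos
  have h2 := h.2
  have h3 := h.pos
  unfold Aa
  rw [div_le_iff₀ (by linarith)]
  nlinarith

lemma Aa_pos {t : ℝ} (h : 0 < t) : 0 < Aa t := by
  have h1 := aa_pos h
  unfold Aa
  positivity

lemma t3_gg_sq_le {t : ℝ} (h : Band t) : t ^ 3 * gg t ^ 2 ≤ 36 / 125 := by
  obtain ⟨h1, h2⟩ := gg_bounds h
  obtain ⟨h3, h4⟩ := t3_bounds h
  have h5 : gg t ^ 2 ≤ 36 := by nlinarith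
  have h6 : 0 ≤ gg t ^ 2 := by positivity
  nlinarith

/-- The constant shift making the potentials nonnegative. -/
lemma Ur_XX_bounds {σ : ℝ} (hσ : σ ^ 2 = 1) {p : Fin 3 → ℝ} (hp : p ∈ Dom) :
    -3 ≤ Ur (XX σ p) ∧ Ur (XX σ p) ≤ -1 / 2 := by
  have hb : Band (p 0) := hp.1
  rw [Ur_XX hσ hp]
  have h1 := Aa_le hb
  have h2 := Aa_pos hb.pos
  have h3 := t3_gg_sq_le hb
  have h4 : 0 ≤ p 0 ^ 3 * gg (p 0) ^ 2 := by
    have := hb.pos
    positivity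
  constructor <;> linarith

/-! ### The support -/

/-- The set carrying all the mass. -/
def Om : Set E3 := XX 1 '' Dom ∪ XX (-1) '' Dom ∪ W0 '' Dom ∪ WW 1 '' Dom ∪ WW (-1) '' Dom

/-- a point of one of the near patches -/
def InnerPt (u : E3) : Prop := 1 / 4 ≤ ‖u‖ ^ 2 ∧ ‖u‖ ^ 2 ≤ 13 / 50 ∧ ‖u‖ < 2

/-- a point of one of the far patches -/
def OuterPt (u : E3) : Prop := ∃ σ p, (σ = 1 ∨ σ = -1) ∧ p ∈ Dom ∧ u = XX σ p

lemma innerPt_of_norm {u : E3} {t : ℝ} (hb : Band t) (h : ‖u‖ ^ 2 = RR t ^ 2) : InnerPt u := by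
  have h1 := RR_sq hb
  have h2 := SS_bounds hb
  have h3 : RR t ^ 2 = SS t := h1
  rw [h3] at h
  refine ⟨by linarith [h2.1], by linarith [h2.2], ?_⟩
  have h4 : ‖u‖ ^ 2 < 2 ^ 2 := by nlinarith [h2.2]
  exact lt_of_pow_lt_pow_left₀ 2 (by norm_num) h4

lemma innerPt_WW {σ : ℝ} (hσ : σ ^ 2 = 1) {p : Fin 3 → ℝ} (hp : p ∈ Dom) : InnerPt (WW σ p) :=
  innerPt_of_norm hp.1 (norm_sq_WW hσ hp)

lemma innerPt_W0 {p : Fin 3 → ℝ} (hp : p ∈ Dom) : InnerPt (W0 p) :=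
  innerPt_of_norm hp.1 (norm_sq_W0 p)

lemma classify {u : E3} (hu : u ∈ Om) : OuterPt u ∨ InnerPt u := by
  rcases hu with ((((⟨p, hp, rfl⟩ | ⟨p, hp, rfl⟩) | ⟨p, hp, rfl⟩) | ⟨p, hp, rfl⟩) | ⟨p, hp, rfl⟩)
  · exact Or.inl ⟨1, p, Or.inl rfl, hp, rfl⟩
  · exact Or.inl ⟨-1, p, Or.inr rfl, hp, rfl⟩
  · exact Or.inr (innerPt_W0 hp)
  · exact Or.inr (innerPt_WW (by norm_num) hp)
  · exact Or.inr (innerPt_WW (by norm_num) hp)

lemma Ur_outer_bounds {u : E3} (h : OuterPt u) : -3 ≤ Ur u ∧ Ur u ≤ -17 / 30 := by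
  obtain ⟨σ, p, hσ, hp, rfl⟩ := h
  have hb : Band (p 0) := hp.1
  rw [Ur_XX (sigma_sq hσ) hp]
  have h1 := Aa_le hb
  have h2 := Aa_pos hb.pos
  have h3 := t3_gg_sq_le hb
  have h4 : 0 ≤ p 0 ^ 3 * gg (p 0) ^ 2 := by
    have := hb.pos
    positivity
  constructor <;> linarith

lemma Ur_inner_bounds {u : E3} (h : InnerPt u) : 0 ≤ Ur u ∧ Ur u ≤ 13 / 12 := by
  obtain ⟨h1, h2, h3⟩ := h
  rw [Ur_inner h3]
  constructor <;> linarith

/-- Real form of the Coulomb cost. -/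
noncomputable def costR (u v w : E3) : ℝ := ‖u - v‖⁻¹ + ‖u - w‖⁻¹ + ‖v - w‖⁻¹

lemma costR_swap12 (u v w : E3) : costR v u w = costR u v w := by
  unfold costR
  rw [norm_sub_rev v u]
  ring

lemma costR_rot (u v w : E3) : costR w u v = costR u v w := by
  unfold costR
  rw [norm_sub_rev w u, norm_sub_rev w v]
  ring

lemma costR_pos {u v w : E3} (h1 : u ≠ v) (h2 : u ≠ w) (h3 : v ≠ w) : 0 < costR u v w := by
  unfold costR
  have a1 := norm_sub_pos h1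
  have a2 := norm_sub_pos h2
  have a3 := norm_sub_pos h3
  positivity

/-- The contact relation: `x` is a far point with parameter `p`, `y`, `z` near points, and the
triangle has the prescribed shape and center. -/
structure Contact (σ : ℝ) (p : Fin 3 → ℝ) (x y z : E3) : Prop where
  sign : σ = 1 ∨ σ = -1
  mem : p ∈ Dom
  hx : x = XX σ p
  hy : InnerPt y
  hz : InnerPt z
  d1 : ‖x - y‖ = aa (p 0) / p 0
  d2 : ‖x - z‖ = aa (p 0) / p 0
  d3 : ‖y - z‖ = aa (p 0)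
  sum : ‖p 0 ^ 3 • x + y + z‖ = 0

lemma outer_sum {σ : ℝ} (hσ : σ ^ 2 = 1) {p : Fin 3 → ℝ} (hp : p ∈ Dom) {y z : E3}
    (hy : InnerPt y) (hz : InnerPt z) :
    Ur (XX σ p) + Ur y + Ur z = Aa (p 0) - p 0 ^ 3 * ‖XX σ p‖ ^ 2 - ‖y‖ ^ 2 - ‖z‖ ^ 2 := by
  rw [Ur_XX hσ hp, Ur_inner hy.2.2, Ur_inner hz.2.2, norm_XX hσ hp]
  ring

lemma U_le_outer {σ : ℝ} (hσ : σ = 1 ∨ σ = -1) {p : Fin 3 → ℝ} (hp : p ∈ Dom) {y z : E3}
    (hy : InnerPt y) (hz : InnerPt z) (h1 : XX σ p ≠ y) (h2 : XX σ p ≠ z) (h3 : y ≠ z) :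
    Ur (XX σ p) + Ur y + Ur z ≤ costR (XX σ p) y z := by
  rw [outer_sum (sigma_sq hσ) hp hy hz]
  exact star_ineq (Band.pos hp.1) h1 h2 h3

lemma contact_of_eq_outer {σ : ℝ} (hσ : σ = 1 ∨ σ = -1) {p : Fin 3 → ℝ} (hp : p ∈ Dom) {y z : E3}
    (hy : InnerPt y) (hz : InnerPt z) (h1 : XX σ p ≠ y) (h2 : XX σ p ≠ z) (h3 : y ≠ z)
    (heq : Ur (XX σ p) + Ur y + Ur z = costR (XX σ p) y z) : Contact σ p (XX σ p) y z := by
  rw [outer_sum (sigma_sq hσ) hp hy hz] at heq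
  obtain ⟨e1, e2, e3, e4⟩ := star_eq (Band.pos hp.1) h1 h2 h3 heq
  exact ⟨hσ, hp, rfl, hy, hz, e1, e2, e3, e4⟩

/-- On the support, the three potentials are bounded by the cost. -/
lemma U_le_cost {u v w : E3} (hu : u ∈ Om) (hv : v ∈ Om) (hw : w ∈ Om)
    (h1 : u ≠ v) (h2 : u ≠ w) (h3 : v ≠ w) : Ur u + Ur v + Ur w ≤ costR u v w := by
  have hpos := costR_pos h1 h2 h3
  rcases classify hu with hu' | hu' <;> rcases classify hv with hv' | hv' <;>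
    rcases classify hw with hw' | hw'
  · have a1 := (Ur_outer_bounds hu').2
    have a2 := (Ur_outer_bounds hv').2
    have a3 := (Ur_outer_bounds hw').2
    linarith
  · have a1 := (Ur_outer_bounds hu').2
    have a2 := (Ur_outer_bounds hv').2
    have a3 := (Ur_inner_bounds hw').2
    linarith
  · have a1 := (Ur_outer_bounds hu').2
    have a2 := (Ur_inner_bounds hv').2
    have a3 := (Ur_outer_bounds hw').2
    linarith
  · obtain ⟨σ, p, hσ, hp, rfl⟩ := hu'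
    exact U_le_outer hσ hp hv' hw' h1 h2 h3
  · have a1 := (Ur_inner_bounds hu').2
    have a2 := (Ur_outer_bounds hv').2
    have a3 := (Ur_outer_bounds hw').2
    linarith
  · obtain ⟨σ, p, hσ, hp, rfl⟩ := hv'
    have := U_le_outer hσ hp hu' hw' h1.symm h3 h2
    rw [costR_swap12] at this
    linarith
  · obtain ⟨σ, p, hσ, hp, rfl⟩ := hw'
    have := U_le_outer hσ hp hu' hv' h2.symm h3.symm h1
    rw [costR_rot] at this
    linarith
  · have a1 := (Ur_inner_bounds hu').2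
    have a2 := (Ur_inner_bounds hv').2
    have a3 := (Ur_inner_bounds hw').2
    have a4 := equilateral_ineq h1 h2 h3
    have b1 := hu'.2.1
    have b2 := hv'.2.1
    have b3 := hw'.2.1
    unfold costR
    linarith

/-- Equality on the support forces the contact relation, up to permuting the three points. -/
lemma contact_of_eq {u v w : E3} (hu : u ∈ Om) (hv : v ∈ Om) (hw : w ∈ Om)
    (h1 : u ≠ v) (h2 : u ≠ w) (h3 : v ≠ w) (heq : Ur u + Ur v + Ur w = costR u v w) :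
    ∃ σ p x y z, [u, v, w].Perm [x, y, z] ∧ Contact σ p x y z := by
  have hpos := costR_pos h1 h2 h3
  rcases classify hu with hu' | hu' <;> rcases classify hv with hv' | hv' <;>
    rcases classify hw with hw' | hw'
  · have a1 := (Ur_outer_bounds hu').2
    have a2 := (Ur_outer_bounds hv').2
    have a3 := (Ur_outer_bounds hw').2
    exfalso; linarith
  · have a1 := (Ur_outer_bounds hu').2
    have a2 := (Ur_outer_bounds hv').2
    have a3 := (Ur_inner_bounds hw').2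
    exfalso; linarith
  · have a1 := (Ur_outer_bounds hu').2
    have a2 := (Ur_inner_bounds hv').2
    have a3 := (Ur_outer_bounds hw').2
    exfalso; linarith
  · obtain ⟨σ, p, hσ, hp, rfl⟩ := hu'
    exact ⟨σ, p, _, _, _, List.Perm.refl _, contact_of_eq_outer hσ hp hv' hw' h1 h2 h3 heq⟩
  · have a1 := (Ur_inner_bounds hu').2
    have a2 := (Ur_outer_bounds hv').2
    have a3 := (Ur_outer_bounds hw').2
    exfalso; linarith
  · obtain ⟨σ, p, hσ, hp, rfl⟩ := hv'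
    refine ⟨σ, p, _, _, _, List.Perm.swap _ _ _, contact_of_eq_outer hσ hp hu' hw' h1.symm h3 h2 ?_⟩
    rw [costR_swap12]
    linarith
  · obtain ⟨σ, p, hσ, hp, rfl⟩ := hw'
    refine ⟨σ, p, XX σ p, u, v, ?_, contact_of_eq_outer hσ hp hu' hv' h2.symm h3.symm h1 ?_⟩
    · exact (List.Perm.cons _ (List.Perm.swap _ _ _)).trans (List.Perm.swap _ _ _)
    · rw [costR_rot]
      linarith
  · have a1 := (Ur_inner_bounds hu').2
    have a2 := (Ur_inner_bounds hv').2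
    have a3 := (Ur_inner_bounds hw').2
    have a4 := equilateral_ineq h1 h2 h3
    have b1 := hu'.2.1
    have b2 := hv'.2.1
    have b3 := hw'.2.1
    unfold costR at heq
    exfalso; linarith

/-! ### The second level -/

lemma perp_eq {ξ ζ u v u' v' : ℝ} (hξ : ξ ≠ 0) (h1 : ξ * u + ζ * v = 0) (h2 : ξ * u' + ζ * v' = 0)
    (h3 : u ^ 2 + v ^ 2 = u' ^ 2 + v' ^ 2) : (u = u' ∧ v = v') ∨ (u = -u' ∧ v = -v') := by
  have hξ2 : 0 < ξ ^ 2 := by positivity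
  have e1 : ξ * u = -(ζ * v) := by linarith
  have e2 : ξ * u' = -(ζ * v') := by linarith
  have h4 : (ξ ^ 2 + ζ ^ 2) * (v ^ 2 - v' ^ 2) = 0 := by
    have a1 : ξ ^ 2 * u ^ 2 = ζ ^ 2 * v ^ 2 := by
      have : (ξ * u) ^ 2 = (ζ * v) ^ 2 := by rw [e1]; ring
      linear_combination this
    have a2 : ξ ^ 2 * u' ^ 2 = ζ ^ 2 * v' ^ 2 := by
      have : (ξ * u') ^ 2 = (ζ * v') ^ 2 := by rw [e2]; ring
      linear_combination this
    have a3 : ξ ^ 2 * (u ^ 2 + v ^ 2) = ξ ^ 2 * (u' ^ 2 + v' ^ 2) := by rw [h3]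
    nlinarith [a1, a2, a3]
  have h5 : ξ ^ 2 + ζ ^ 2 ≠ 0 := by positivity
  have h6 : v ^ 2 = v' ^ 2 := by
    have := (mul_eq_zero.mp h4).resolve_left h5
    linarith
  rcases sq_eq_sq_iff_eq_or_eq_neg.mp h6 with h | h
  · left
    refine ⟨?_, h⟩
    have : ξ * u = ξ * u' := by rw [e1, e2, h]
    exact mul_left_cancel₀ hξ this
  · right
    refine ⟨?_, h⟩
    have : ξ * u = ξ * (-u') := by
      rw [e1, h]
      linarith
    exact mul_left_cancel₀ hξ this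

/-- Coordinates in the contact relation. -/
lemma Contact.sum_coord {σ : ℝ} {p : Fin 3 → ℝ} {x y z : E3} (h : Contact σ p x y z) (i : Fin 3) :
    p 0 ^ 3 * x i + y i + z i = 0 := by
  have h1 : p 0 ^ 3 • x + y + z = 0 := norm_eq_zero.mp h.sum
  have h2 := congrArg (fun w : E3 => w i) h1
  simpa using h2

/-- `x` and `y - z` are orthogonal in the contact relation. -/
lemma Contact.orth {σ : ℝ} {p : Fin 3 → ℝ} {x y z : E3} (h : Contact σ p x y z) :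
    x 0 * (y 0 - z 0) + x 1 * (y 1 - z 1) + x 2 * (y 2 - z 2) = 0 := by
  have hb : Band (p 0) := h.mem.1
  have ht := hb.pos
  have s0 := h.sum_coord 0
  have s1 := h.sum_coord 1
  have s2 := h.sum_coord 2
  have h1 : ‖x - y‖ ^ 2 = ‖x - z‖ ^ 2 := by rw [h.d1, h.d2]
  simp only [norm_sq3, PiLp.sub_apply] at h1
  have h3 : (2 + p 0 ^ 3) * (x 0 * (y 0 - z 0) + x 1 * (y 1 - z 1) + x 2 * (y 2 - z 2)) = 0 := by
    have e0 : y 0 + z 0 = - (p 0 ^ 3 * x 0) := by linarith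
    have e1 : y 1 + z 1 = - (p 0 ^ 3 * x 1) := by linarith
    have e2 : y 2 + z 2 = - (p 0 ^ 3 * x 2) := by linarith
    linear_combination (-1 : ℝ) * h1 + (y 0 - z 0) * e0 + (y 1 - z 1) * e1 + (y 2 - z 2) * e2
  have h4 : (2 + p 0 ^ 3) ≠ 0 := by positivity
  exact (mul_eq_zero.mp h3).resolve_left h4

/-- The exact value of the second level sum on a contact triple. -/
lemma Contact.Fr_sum {σ : ℝ} {p : Fin 3 → ℝ} {x y z : E3} (h : Contact σ p x y z) :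
    Fr x + Fr y + Fr z
      = ((y 0 - z 0) * x 1 - (y 1 - z 1) * x 0) ^ 2 / (2 * gg (p 0) ^ 2) := by
  have hb : Band (p 0) := h.mem.1
  have hσ := sigma_sq h.sign
  have hg := gg_pos hb
  have hx : ‖x‖ = gg (p 0) := by rw [h.hx]; exact norm_XX hσ h.mem
  have hFx : Fr x = p 0 ^ 6 / 2 * x 2 ^ 2 + aa (p 0) ^ 2 / 2 * (1 - x 2 ^ 2 / gg (p 0) ^ 2) := by
    rw [h.hx]; exact Fr_XX hσ h.mem
  rw [hFx, Fr_inner h.hy.2.2, Fr_inner h.hz.2.2]
  have h1 : gg (p 0) ^ 2 = x 0 ^ 2 + x 1 ^ 2 + x 2 ^ 2 := by rw [← hx]; exact norm_sq3 x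
  have h2 : aa (p 0) ^ 2 = (y 0 - z 0) ^ 2 + (y 1 - z 1) ^ 2 + (y 2 - z 2) ^ 2 := by
    rw [← h.d3]
    simp only [norm_sq3, PiLp.sub_apply]
  have h3 := h.orth
  have h4 := h.sum_coord 2
  have h5 : y 2 + z 2 = - (p 0 ^ 3 * x 2) := by linarith
  have hG : gg (p 0) ^ 2 ≠ 0 := by positivity
  rw [eq_div_iff (by positivity)]
  have e : aa (p 0) ^ 2 / 2 * (1 - x 2 ^ 2 / gg (p 0) ^ 2) * (2 * gg (p 0) ^ 2)
      = aa (p 0) ^ 2 * (gg (p 0) ^ 2 - x 2 ^ 2) := by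
    field_simp
  have h6 : (y 2 + z 2) ^ 2 = p 0 ^ 6 * x 2 ^ 2 := by rw [h5]; ring
  have h7 : x 2 * (y 2 - z 2) = -(x 0 * (y 0 - z 0) + x 1 * (y 1 - z 1)) := by linarith
  have h8 : (x 2 * (y 2 - z 2)) ^ 2 = (x 0 * (y 0 - z 0) + x 1 * (y 1 - z 1)) ^ 2 := by rw [h7]; ring
  have e2 : (p 0 ^ 6 / 2 * x 2 ^ 2 + aa (p 0) ^ 2 / 2 * (1 - x 2 ^ 2 / gg (p 0) ^ 2)
        + -y 2 ^ 2 + -z 2 ^ 2) * (2 * gg (p 0) ^ 2)
      = p 0 ^ 6 * x 2 ^ 2 * gg (p 0) ^ 2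
        + aa (p 0) ^ 2 / 2 * (1 - x 2 ^ 2 / gg (p 0) ^ 2) * (2 * gg (p 0) ^ 2)
        - 2 * gg (p 0) ^ 2 * (y 2 ^ 2 + z 2 ^ 2) := by ring
  rw [e2, e, h1, h2]
  linear_combination (-(x 0 ^ 2 + x 1 ^ 2 + x 2 ^ 2)) * h6 - h8

lemma Contact.Fr_nonneg {σ : ℝ} {p : Fin 3 → ℝ} {x y z : E3} (h : Contact σ p x y z) :
    0 ≤ Fr x + Fr y + Fr z := by
  rw [h.Fr_sum]
  positivity

lemma ext3 {u v : E3} (h0 : u 0 = v 0) (h1 : u 1 = v 1) (h2 : u 2 = v 2) : u = v := by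
  apply PiLp.ext
  intro i
  fin_cases i
  · exact h0
  · exact h1
  · exact h2

/-- A contact triple with vanishing second level sum is a triangle of our family. -/
lemma Contact.typed {σ : ℝ} {p : Fin 3 → ℝ} {x y z : E3} (h : Contact σ p x y z)
    (h0 : Fr x + Fr y + Fr z = 0) :
    (y = W0 p ∧ z = WW σ p) ∨ (y = WW σ p ∧ z = W0 p) := by
  have hb : Band (p 0) := h.mem.1
  have hσ := sigma_sq h.sign
  have hg := gg_pos hb
  have s1 := sin_sq_add_cos_sq (p 1)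
  have s2 := sin_sq_add_cos_sq (p 2)
  -- coordinates of `x`
  have hx0 : x 0 = (PX (p 0) * sin (p 1) + (-σ * QX (p 0)) * cos (p 1)) * cos (p 2) := by
    rw [h.hx]; exact mapE_0 _ _ _
  have hx1 : x 1 = (PX (p 0) * sin (p 1) + (-σ * QX (p 0)) * cos (p 1)) * sin (p 2) := by
    rw [h.hx]; exact mapE_1 _ _ _
  have hx2 : x 2 = PX (p 0) * cos (p 1) - (-σ * QX (p 0)) * sin (p 1) := by
    rw [h.hx]; exact mapE_2 _ _ _
  have hξ : PX (p 0) * sin (p 1) + (-σ * QX (p 0)) * cos (p 1) ≠ 0 := xi_XX_ne h.sign h.mem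
  set ξ := PX (p 0) * sin (p 1) + (-σ * QX (p 0)) * cos (p 1) with hξdef
  set ζ := PX (p 0) * cos (p 1) - (-σ * QX (p 0)) * sin (p 1) with hζdef
  -- coordinates of the difference
  set e0 := y 0 - z 0 with he0
  set e1 := y 1 - z 1 with he1
  set e2 := y 2 - z 2 with he2
  have h3 : (e0 * x 1 - e1 * x 0) ^ 2 / (2 * gg (p 0) ^ 2) = 0 := by
    rw [← h.Fr_sum]; exact h0
  have h4 : (e0 * x 1 - e1 * x 0) ^ 2 = 0 := by
    have := (div_eq_zero_iff.mp h3).resolve_right (by positivity)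
    exact this
  have h5 : e0 * x 1 - e1 * x 0 = 0 := by simpa using h4
  have h6 : e0 * sin (p 2) = e1 * cos (p 2) := by
    rw [hx0, hx1] at h5
    have : ξ * (e0 * sin (p 2) - e1 * cos (p 2)) = 0 := by linear_combination h5
    have := (mul_eq_zero.mp this).resolve_left hξ
    linarith
  set u := e0 * cos (p 2) + e1 * sin (p 2) with hu
  have h7 : e0 = u * cos (p 2) := by
    rw [hu]
    linear_combination (-e0) * s2 + (sin (p 2)) * h6
  have h8 : e1 = u * sin (p 2) := by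
    rw [hu]
    linear_combination (-e1) * s2 - (cos (p 2)) * h6
  have h9 : ξ * u + ζ * e2 = 0 := by
    have := h.orth
    rw [hx0, hx1, hx2] at this
    rw [hu]
    linear_combination this
  have h10 : u ^ 2 + e2 ^ 2 = aa (p 0) ^ 2 := by
    have h11 : e0 ^ 2 + e1 ^ 2 + e2 ^ 2 = aa (p 0) ^ 2 := by
      rw [← h.d3]
      simp only [norm_sq3, PiLp.sub_apply]
      rfl
    rw [← h11, h7, h8]
    linear_combination (-u ^ 2) * s2
  -- the reference difference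
  set P' := RR (p 0) - PW (p 0) with hP'
  set Q' := 0 - σ * QW (p 0) with hQ'
  set ξ' := P' * sin (p 1) + Q' * cos (p 1) with hξ'
  set ζ' := P' * cos (p 1) - Q' * sin (p 1) with hζ'
  have h12 : ξ * ξ' + ζ * ζ' = 0 := by
    have := coef_orth hσ hb
    have e : ξ * ξ' + ζ * ζ' = P' * PX (p 0) + Q' * (-σ * QX (p 0)) := by
      rw [hξdef, hξ', hζdef, hζ']
      linear_combination (P' * PX (p 0) + Q' * (-σ * QX (p 0))) * s1
    rw [e]
    exact this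
  have h13 : ξ' ^ 2 + ζ' ^ 2 = aa (p 0) ^ 2 := by
    have := alg3 (RR (p 0)) (hh (p 0)) (aa (p 0)) σ (RR_pos hb).ne' (RR_sq hb) hσ
    have e : ξ' ^ 2 + ζ' ^ 2 = P' ^ 2 + Q' ^ 2 := by
      rw [hξ', hζ']
      linear_combination (P' ^ 2 + Q' ^ 2) * s1
    rw [e]
    exact this
  have h14 := h.sum_coord 0
  have h15 := h.sum_coord 1
  have h16 := h.sum_coord 2
  have r0 := sum_zero (σ := σ) h.mem 0
  have r1 := sum_zero (σ := σ) h.mem 1
  have r2 := sum_zero (σ := σ) h.mem 2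
  rw [← h.hx] at r0 r1 r2
  have d0 : W0 p 0 - WW σ p 0 = ξ' * cos (p 2) := by
    unfold W0 WW
    rw [mapE_0, mapE_0, hξ', hP', hQ']
    ring
  have d1 : W0 p 1 - WW σ p 1 = ξ' * sin (p 2) := by
    unfold W0 WW
    rw [mapE_1, mapE_1, hξ', hP', hQ']
    ring
  have d2 : W0 p 2 - WW σ p 2 = ζ' := by
    unfold W0 WW
    rw [mapE_2, mapE_2, hζ', hP', hQ']
    ring
  rcases perp_eq hξ h9 h12 (by rw [h10, h13]) with ⟨a1, a2⟩ | ⟨a1, a2⟩
  · left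
    have b0 : e0 = W0 p 0 - WW σ p 0 := by rw [d0, h7, a1]
    have b1 : e1 = W0 p 1 - WW σ p 1 := by rw [d1, h8, a1]
    have b2 : e2 = W0 p 2 - WW σ p 2 := by rw [d2, a2]
    rw [he0] at b0
    rw [he1] at b1
    rw [he2] at b2
    constructor
    · apply ext3 <;> linarith
    · apply ext3 <;> linarith
  · right
    have b0 : e0 = -(W0 p 0 - WW σ p 0) := by rw [d0, h7, a1]; ring
    have b1 : e1 = -(W0 p 1 - WW σ p 1) := by rw [d1, h8, a1]; ring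
    have b2 : e2 = -(W0 p 2 - WW σ p 2) := by rw [d2, a2]
    rw [he0] at b0
    rw [he1] at b1
    rw [he2] at b2
    constructor
    · apply ext3 <;> linarith
    · apply ext3 <;> linarith

end Vale.Agent.Lib.P121
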